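import Vale.Agent.P159.T1.S.Stmts
import Mathlib.NumberTheory.Harmonic.Bounds

/-!
Row StmtOsc of the sharp stage of P159: sums over faces of functions of the distance to the tips.
-/

namespace Vale.Agent.P159.T1.S.H126

open Vale.Agent.P159.T1.D Vale.Agent.P159.T1.S
open Vale.Agent.P159.T1.H775 (InBox stp)

/-! ### shells -/

lemma nm_le_iff {f : Z2} {k : ℕ} : nm f ≤ k ↔ |f.1| ≤ k ∧ |f.2| ≤ k := by
  unfold nm
  rw [max_le_iff, Int.abs_eq_natAbs, Int.abs_eq_natAbs]
  constructor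
  · rintro ⟨h1, h2⟩; exact ⟨by exact_mod_cast h1, by exact_mod_cast h2⟩
  · rintro ⟨h1, h2⟩; exact ⟨by exact_mod_cast h1, by exact_mod_cast h2⟩

lemma card_shell (F : Finset Z2) (k : ℕ) : (F.filter fun f => nm f = k).card ≤ 8 * (k + 1) := by
  classical
  set I : Finset ℤ := Finset.Icc (-(k : ℤ)) k with hI
  have hcI : I.card = 2 * k + 1 := by
    rw [hI, Int.card_Icc]
    omega
  have hsub : (F.filter fun f => nm f = k) ⊆
      (I.image fun j => ((k : ℤ), j)) ∪ (I.image fun j => (-(k : ℤ), j)) ∪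
        ((I.image fun j => (j, (k : ℤ))) ∪ (I.image fun j => (j, -(k : ℤ)))) := by
    intro f hf
    have h := (Finset.mem_filter.1 hf).2
    have h1 := (nm_le_iff (f := f) (k := k)).1 h.le
    obtain ⟨a, b⟩ := f
    simp only at h1
    have h2 : |a| = k ∨ |b| = k := by
      unfold nm at h
      simp only at h
      rw [Int.abs_eq_natAbs, Int.abs_eq_natAbs]
      rcases le_total a.natAbs b.natAbs with h3 | h3
      · rw [max_eq_right h3] at h; right; exact_mod_cast h
      · rw [max_eq_left h3] at h; left; exact_mod_cast h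
    rw [abs_le, abs_le] at h1
    rw [Finset.mem_union, Finset.mem_union, Finset.mem_union, Finset.mem_image, Finset.mem_image,
      Finset.mem_image, Finset.mem_image]
    rcases h2 with h2 | h2
    · left
      rcases abs_eq (by positivity : (0 : ℤ) ≤ k) |>.1 h2 with h3 | h3
      · left; exact ⟨b, Finset.mem_Icc.2 h1.2, by rw [h3]⟩
      · right; exact ⟨b, Finset.mem_Icc.2 h1.2, by rw [h3]⟩
    · right
      rcases abs_eq (by positivity : (0 : ℤ) ≤ k) |>.1 h2 with h3 | h3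
      · left; exact ⟨a, Finset.mem_Icc.2 h1.1, by rw [h3]⟩
      · right; exact ⟨a, Finset.mem_Icc.2 h1.1, by rw [h3]⟩
  have h1 := Finset.card_le_card hsub
  have h2 := Finset.card_union_le
    ((I.image fun j => ((k : ℤ), j)) ∪ (I.image fun j => (-(k : ℤ), j)))
    ((I.image fun j => (j, (k : ℤ))) ∪ (I.image fun j => (j, -(k : ℤ))))
  have h3 := Finset.card_union_le (I.image fun j => ((k : ℤ), j)) (I.image fun j => (-(k : ℤ), j))
  have h4 := Finset.card_union_le (I.image fun j => (j, (k : ℤ))) (I.image fun j => (j, -(k : ℤ)))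
  have h5 := Finset.card_image_le (s := I) (f := fun j => ((k : ℤ), j))
  have h6 := Finset.card_image_le (s := I) (f := fun j => (-(k : ℤ), j))
  have h7 := Finset.card_image_le (s := I) (f := fun j => (j, (k : ℤ)))
  have h8 := Finset.card_image_le (s := I) (f := fun j => (j, -(k : ℤ)))
  omega

lemma sum_nm {F : Finset Z2} {N : ℕ} (hF : ∀ f ∈ F, nm f ≤ N) {W : ℕ → ℝ} (hW : ∀ k, 0 ≤ W k) :
    ∑ f ∈ F, W (nm f) ≤ ∑ k ∈ Finset.range (N + 1), 8 * ((k : ℝ) + 1) * W k := by
  classical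
  rw [← Finset.sum_fiberwise_of_maps_to (s := F) (t := Finset.range (N + 1)) (g := nm)
    (fun f hf => Finset.mem_range.2 (Nat.lt_succ_of_le (hF f hf)))]
  refine Finset.sum_le_sum fun k _ => ?_
  have h1 : ∑ f ∈ F with nm f = k, W (nm f) = ((F.filter fun f => nm f = k).card : ℝ) * W k := by
    rw [Finset.sum_congr rfl (g := fun _ => W k) fun f hf => by rw [(Finset.mem_filter.1 hf).2],
      Finset.sum_const, nsmul_eq_mul]
  rw [h1]
  refine mul_le_mul_of_nonneg_right ?_ (hW k)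
  have := card_shell F k
  calc ((F.filter fun f => nm f = k).card : ℝ) ≤ ((8 * (k + 1) : ℕ) : ℝ) := by exact_mod_cast this
    _ = 8 * ((k : ℝ) + 1) := by push_cast; ring

lemma mir_mir (r : ℕ) (f : Z2) : mir r (mir r f) = f := by
  unfold mir
  ext
  · simp
  · rfl

lemma mir_inj (r : ℕ) : Function.Injective (mir r) := fun f g h => by
  rw [← mir_mir r f, h, mir_mir]

lemma sum_ns {F : Finset Z2} {r N : ℕ} (hF : ∀ f ∈ F, ns r f ≤ N) {W : ℕ → ℝ}
    (hW : ∀ k, 0 ≤ W k) :
    ∑ f ∈ F, W (ns r f) ≤ 2 * ∑ k ∈ Finset.range (N + 1), 8 * ((k : ℝ) + 1) * W k := by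
  classical
  rw [← Finset.sum_filter_add_sum_filter_not F (fun f => nm f ≤ nm (mir r f))]
  have h1 : ∑ f ∈ F with nm f ≤ nm (mir r f), W (ns r f) ≤
      ∑ k ∈ Finset.range (N + 1), 8 * ((k : ℝ) + 1) * W k := by
    rw [Finset.sum_congr rfl (g := fun f => W (nm f)) fun f hf => by
      unfold ns; rw [min_eq_left (Finset.mem_filter.1 hf).2]]
    refine sum_nm (fun f hf => ?_) hW
    have h := hF f (Finset.mem_filter.1 hf).1
    unfold ns at h
    rwa [min_eq_left (Finset.mem_filter.1 hf).2] at h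
  have h2 : ∑ f ∈ F with ¬nm f ≤ nm (mir r f), W (ns r f) ≤
      ∑ k ∈ Finset.range (N + 1), 8 * ((k : ℝ) + 1) * W k := by
    rw [Finset.sum_congr rfl (g := fun f => W (nm (mir r f))) fun f hf => by
      unfold ns; rw [min_eq_right (not_le.1 (Finset.mem_filter.1 hf).2).le],
      ← Finset.sum_image (f := fun f => W (nm f)) (g := mir r) fun x _ y _ h => mir_inj r h]
    refine sum_nm (fun f hf => ?_) hW
    obtain ⟨g, hg, rfl⟩ := Finset.mem_image.1 hf
    have h := hF g (Finset.mem_filter.1 hg).1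
    unfold ns at h
    rwa [min_eq_right (not_le.1 (Finset.mem_filter.1 hg).2).le] at h
  linarith

/-! ### rows -/

lemma sum_row {F : Finset Z2} {N L : ℕ} (hF : ∀ f ∈ F, f.1.natAbs ≤ N)
    (hL : ∀ f ∈ F, |f.2 + 1| ≤ L) {W : ℕ → ℝ} (hW : ∀ k, 0 ≤ W k) :
    ∑ f ∈ F, W f.1.natAbs ≤ 2 * (2 * (L : ℝ) + 1) * ∑ k ∈ Finset.range (N + 1), W k := by
  classical
  rw [← Finset.sum_fiberwise_of_maps_to (s := F) (t := Finset.range (N + 1))
    (g := fun f => f.1.natAbs) (fun f hf => Finset.mem_range.2 (Nat.lt_succ_of_le (hF f hf))),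
    Finset.mul_sum]
  refine Finset.sum_le_sum fun k _ => ?_
  have h1 : ∑ f ∈ F with f.1.natAbs = k, W f.1.natAbs =
      ((F.filter fun f => f.1.natAbs = k).card : ℝ) * W k := by
    rw [Finset.sum_congr rfl (g := fun _ => W k) fun f hf => by rw [(Finset.mem_filter.1 hf).2],
      Finset.sum_const, nsmul_eq_mul]
  rw [h1]
  refine mul_le_mul_of_nonneg_right ?_ (hW k)
  have hsub : (F.filter fun f => f.1.natAbs = k) ⊆
      ({(k : ℤ), -(k : ℤ)} : Finset ℤ) ×ˢ Finset.Icc (-(L : ℤ) - 1) (L - 1) := by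
    intro f hf
    obtain ⟨h2, h3⟩ := Finset.mem_filter.1 hf
    rw [Finset.mem_product, Finset.mem_insert, Finset.mem_singleton, Finset.mem_Icc]
    have h4 := hL f h2
    rw [abs_le] at h4
    constructor
    · omega
    · omega
  have h2 := Finset.card_le_card hsub
  rw [Finset.card_product, Int.card_Icc] at h2
  have h3 : ({(k : ℤ), -(k : ℤ)} : Finset ℤ).card ≤ 2 := Finset.card_le_two
  have h4 : ((L : ℤ) - 1 + 1 - (-(L : ℤ) - 1)).toNat = 2 * L + 1 := by omega
  rw [h4] at h2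
  have h5 : (F.filter fun f => f.1.natAbs = k).card ≤ 2 * (2 * L + 1) :=
    h2.trans (Nat.mul_le_mul_right _ h3)
  calc ((F.filter fun f => f.1.natAbs = k).card : ℝ) ≤ ((2 * (2 * L + 1) : ℕ) : ℝ) := by
        exact_mod_cast h5
    _ = 2 * (2 * (L : ℝ) + 1) := by push_cast; ring

lemma nm_row {f : Z2} {L : ℕ} (h1 : |f.2 + 1| ≤ L) (h2 : L + 2 ≤ nm f) : nm f = f.1.natAbs := by
  unfold nm at *
  rw [abs_le] at h1
  rw [max_eq_left]
  rcases le_total f.1.natAbs f.2.natAbs with h3 | h3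
  · rw [max_eq_right h3] at h2
    omega
  · exact h3

lemma sum_row_ns {F : Finset Z2} {r N L : ℕ} (hF : ∀ f ∈ F, ns r f ≤ N)
    (hL : ∀ f ∈ F, |f.2 + 1| ≤ L) (hn : ∀ f ∈ F, L + 2 ≤ ns r f) {W : ℕ → ℝ}
    (hW : ∀ k, 0 ≤ W k) :
    ∑ f ∈ F, W (ns r f) ≤ 4 * (2 * (L : ℝ) + 1) * ∑ k ∈ Finset.range (N + 1), W k := by
  classical
  rw [← Finset.sum_filter_add_sum_filter_not F (fun f => nm f ≤ nm (mir r f))]
  have h1 : ∑ f ∈ F with nm f ≤ nm (mir r f), W (ns r f) ≤
      2 * (2 * (L : ℝ) + 1) * ∑ k ∈ Finset.range (N + 1), W k := by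
    have e : ∀ f ∈ F.filter (fun f => nm f ≤ nm (mir r f)), ns r f = f.1.natAbs := by
      intro f hf
      obtain ⟨h2, h3⟩ := Finset.mem_filter.1 hf
      have h4 : ns r f = nm f := by unfold ns; rw [min_eq_left h3]
      rw [h4]
      exact nm_row (hL f h2) (h4 ▸ hn f h2)
    rw [Finset.sum_congr rfl (g := fun f => W f.1.natAbs) fun f hf => by rw [e f hf]]
    refine sum_row (fun f hf => ?_) (fun f hf => hL f (Finset.mem_filter.1 hf).1) hW
    rw [← e f hf]
    exact hF f (Finset.mem_filter.1 hf).1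
  have h2 : ∑ f ∈ F with ¬nm f ≤ nm (mir r f), W (ns r f) ≤
      2 * (2 * (L : ℝ) + 1) * ∑ k ∈ Finset.range (N + 1), W k := by
    have e : ∀ f ∈ F.filter (fun f => ¬nm f ≤ nm (mir r f)), ns r f = (mir r f).1.natAbs := by
      intro f hf
      obtain ⟨h2, h3⟩ := Finset.mem_filter.1 hf
      have h4 : ns r f = nm (mir r f) := by unfold ns; rw [min_eq_right (not_le.1 h3).le]
      rw [h4]
      exact nm_row (hL f h2) (h4 ▸ hn f h2)
    rw [Finset.sum_congr rfl (g := fun f => W (mir r f).1.natAbs) fun f hf => by rw [e f hf],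
      ← Finset.sum_image (f := fun f => W f.1.natAbs) (g := mir r) fun x _ y _ h => mir_inj r h]
    refine sum_row (fun f hf => ?_) (fun f hf => ?_) hW
    · obtain ⟨g, hg, rfl⟩ := Finset.mem_image.1 hf
      rw [← e g hg]
      exact hF g (Finset.mem_filter.1 hg).1
    · obtain ⟨g, hg, rfl⟩ := Finset.mem_image.1 hf
      exact hL g (Finset.mem_filter.1 hg).1
  linarith

/-! ### numbers -/

lemma sum_sq_le (n : ℕ) : ∑ k ∈ Finset.range n, 1 / ((k : ℝ) + 1) ^ 2 ≤ 2 := by
  have key : ∀ n : ℕ, ∑ k ∈ Finset.range (n + 1), 1 / ((k : ℝ) + 1) ^ 2 ≤ 2 - 1 / ((n : ℝ) + 1) := by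
    intro n
    induction n with
    | zero => norm_num
    | succ n ih =>
      rw [Finset.sum_range_succ]
      have h : 1 / (((n + 1 : ℕ) : ℝ) + 1) ^ 2 ≤ 1 / ((n : ℝ) + 1) - 1 / (((n + 1 : ℕ) : ℝ) + 1) := by
        push_cast
        rw [div_sub_div _ _ (by positivity) (by positivity), div_le_div_iff₀ (by positivity)
          (by positivity)]
        nlinarith
      linarith
  rcases n with _ | n
  · norm_num
  · have := key n
    have h : 0 ≤ 1 / ((n : ℝ) + 1) := by positivity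
    linarith

lemma sum_harm_le {r : ℕ} (hr : 1 ≤ r) :
    ∑ k ∈ Finset.range (r + 1), 1 / ((k : ℝ) + 1) ≤ Real.log r + 2 := by
  have h := harmonic_le_one_add_log (r + 1)
  have e : ((harmonic (r + 1) : ℚ) : ℝ) = ∑ k ∈ Finset.range (r + 1), 1 / ((k : ℝ) + 1) := by
    unfold harmonic
    push_cast
    exact Finset.sum_congr rfl fun k _ => by rw [one_div]
  rw [e] at h
  have hr' : (1 : ℝ) ≤ r := by exact_mod_cast hr
  have h2 : Real.log ((r + 1 : ℕ) : ℝ) ≤ Real.log r + 1 := by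
    have h3 : ((r + 1 : ℕ) : ℝ) ≤ 2 * r := by push_cast; linarith
    have h4 : Real.log ((r + 1 : ℕ) : ℝ) ≤ Real.log (2 * r) :=
      Real.log_le_log (by push_cast; linarith) h3
    rw [Real.log_mul (by norm_num) (by linarith)] at h4
    have h5 : Real.log 2 ≤ 1 := by
      have := Real.log_two_lt_d9
      linarith
    linarith
  linarith

/-! ### the base face of a bond -/

/-- the lower or left one of the two faces of a bond -/
def bf (e : Bnd) : Z2 := if e.2 then lf e else rt e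

lemma abs_dr (v : Z2 → ℝ) (e : Bnd) : |dr v e| = |v (stp (!e.2) (bf e)) - v (bf e)| := by
  obtain ⟨⟨i, j⟩, c⟩ := e
  cases c
  · simp [dr, bf, lf, rt, stp]
  · simp only [dr, bf, lf, rt, stp, if_true, Bool.not_true, Bool.false_eq_true, if_false,
      sub_add_cancel]
    rw [abs_sub_comm]

lemma bf_inj {e e' : Bnd} (h : e.2 = e'.2) (h1 : bf e = bf e') : e = e' := by
  obtain ⟨⟨i, j⟩, c⟩ := e
  obtain ⟨⟨i', j'⟩, c'⟩ := e'
  simp only at h
  subst h
  cases c
  · simp only [bf, rt, Bool.false_eq_true, if_false, Prod.mk.injEq, sub_left_inj] at h1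
    simp [h1.1, h1.2]
  · simp only [bf, lf, if_true, Prod.mk.injEq, sub_left_inj] at h1
    simp [h1.1, h1.2]

lemma sum_bf (S : Finset Bnd) {G : Z2 → ℝ} (hG : ∀ f, 0 ≤ G f) :
    ∑ e ∈ S, G (bf e) ≤ 2 * ∑ f ∈ S.image bf, G f := by
  classical
  rw [← Finset.sum_filter_add_sum_filter_not S (fun e => e.2 = true)]
  have key : ∀ S' ⊆ S, (∀ e ∈ S', ∀ e' ∈ S', e.2 = e'.2) →
      ∑ e ∈ S', G (bf e) ≤ ∑ f ∈ S.image bf, G f := by
    intro S' hS' h
    rw [← Finset.sum_image (f := G) (g := bf) fun x hx y hy hxy => bf_inj (h x hx y hy) hxy]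
    exact Finset.sum_le_sum_of_subset_of_nonneg (Finset.image_subset_image hS')
      fun _ _ _ => hG _
  have h1 := key (S.filter fun e => e.2 = true) (Finset.filter_subset _ _) (by
    intro e he e' he'
    rw [(Finset.mem_filter.1 he).2, (Finset.mem_filter.1 he').2])
  have h2 := key (S.filter fun e => ¬e.2 = true) (Finset.filter_subset _ _) (by
    intro e he e' he'
    have a := (Finset.mem_filter.1 he).2
    have b := (Finset.mem_filter.1 he').2
    rw [Bool.not_eq_true] at a b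
    rw [a, b])
  linarith

lemma nm_step {f g : Z2} {l : ℕ} (h1 : |g.1 - f.1| ≤ l) (h2 : |g.2 - f.2| ≤ l) :
    nm f ≤ nm g + l := by
  rw [nm_le_iff]
  have h := (nm_le_iff (f := g) (k := nm g)).1 le_rfl
  rw [abs_le, abs_le] at h
  rw [abs_le] at h1 h2
  push_cast
  constructor <;> rw [abs_le] <;> constructor <;> omega

lemma ns_step {r : ℕ} {f g : Z2} {l : ℕ} (h1 : |g.1 - f.1| ≤ l) (h2 : |g.2 - f.2| ≤ l) :
    ns r f ≤ ns r g + l := by
  have a := nm_step h1 h2
  have b := nm_step (f := mir r f) (g := mir r g) (l := l)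
    (by simp only [mir]; rw [abs_le] at h1 ⊢; omega) (by simp only [mir]; exact h2)
  unfold ns
  rcases le_total (nm g) (nm (mir r g)) with h | h
  · rw [min_eq_left h]
    exact (min_le_left _ _).trans a
  · rw [min_eq_right h]
    exact (min_le_right _ _).trans b

lemma stp_close (d : Bool) (f : Z2) : |(stp d f).1 - f.1| ≤ 1 ∧ |(stp d f).2 - f.2| ≤ 1 := by
  unfold stp
  cases d <;> simp

lemma ns_stp (r : ℕ) (d : Bool) (f : Z2) : ns r f ≤ ns r (stp d f) + 1 ∧
    ns r (stp d f) ≤ ns r f + 1 := by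
  have h := stp_close d f
  constructor
  · exact ns_step (l := 1) (by exact_mod_cast h.1) (by exact_mod_cast h.2)
  · refine ns_step (l := 1) ?_ ?_
    · rw [abs_sub_comm]; exact_mod_cast h.1
    · rw [abs_sub_comm]; exact_mod_cast h.2

end Vale.Agent.P159.T1.S.H126
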