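import Vale.Agent.P159.T1.H565.Harm2

/-!
Row S.EN of plan 118 of P159: energy of the potential where it is small, Caccioppoli for the
increments of harmonic functions, oscillation of the optimal field of a rough domain.
-/

namespace Vale.Agent.P159.T1.S.H126

open Vale.Agent.P159.T1.D Vale.Agent.P159.T1.H565

/-! ### (P2) -/

lemma dr_comp_sq {H : ℝ → ℝ} (hm : Monotone H) (hl : ∀ x y, |H x - H y| ≤ |x - y|) (u : Z2 → ℝ)
    (e : Bnd) : (dr (fun f => H (u f)) e) ^ 2 ≤ dr u e * dr (fun f => H (u f)) e := by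
  unfold dr
  set a := u (lf e)
  set b := u (rt e)
  rcases le_total a b with h | h
  · have h1 := hm h
    have h2 := hl a b
    rw [abs_of_nonpos (by linarith), abs_of_nonpos (by linarith)] at h2
    nlinarith
  · have h1 := hm h
    have h2 := hl a b
    rw [abs_of_nonneg (by linarith), abs_of_nonneg (by linarith)] at h2
    nlinarith

/-- **(P2)**: `u = t - v`, `v` harmonic on `R` with boundary values `t`; the energy of `H(u)` for
a truncation `H` with values in `[-s, s]` -/
theorem energy_H {R : Finset Z2} {t v : Z2 → ℝ} {S0 : Bnd → ℝ} {Y : ℝ} (hY : 0 < Y)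
    (hv : ∀ f, f ∉ R → v f = t f) (hL : ∀ f ∈ R, Lp v f = 0) {H : ℝ → ℝ} (hH0 : H 0 = 0)
    (hm : Monotone H) (hl : ∀ x y, |H x - H y| ≤ |x - y|) {s : ℝ} (hs : ∀ x, |H x| ≤ s) :
    ∑ e ∈ bd R, (dr (fun f => H (t f - v f)) e) ^ 2 ≤
      2 * Y * s * ∑ f ∈ R, |dv S0 f| + Y ^ 2 * ∑ e ∈ bd R, (S0 e - dr t e / Y) ^ 2 := by
  set φ : Z2 → ℝ := fun f => H (t f - v f) with hφ
  have hφ0 : ∀ f, f ∉ R → φ f = 0 := fun f hf => by
    simp only [hφ]
    rw [hv f hf, sub_self, hH0]
  have h1 : ∑ e ∈ bd R, (dr φ e) ^ 2 ≤ ∑ e ∈ bd R, dr (fun f => t f - v f) e * dr φ e :=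
    Finset.sum_le_sum fun e _ => dr_comp_sq hm hl (fun f => t f - v f) e
  have h2 : ∀ e, dr (fun f => t f - v f) e * dr φ e =
      Y * (S0 e * dr φ e) - Y * ((S0 e - dr t e / Y) * dr φ e) - dr v e * dr φ e := by
    intro e
    have h3 : dr (fun f => t f - v f) e = dr t e - dr v e := by
      unfold dr
      ring
    rw [h3]
    have h4 : Y * ((S0 e - dr t e / Y) * dr φ e) = Y * (S0 e * dr φ e) - dr t e * dr φ e := by
      field_simp
    rw [h4]
    ring
  rw [Finset.sum_congr rfl fun e _ => h2 e, Finset.sum_sub_distrib, Finset.sum_sub_distrib,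
    harm_orth hL hφ0, sub_zero, ← Finset.mul_sum, green S0 hφ0] at h1
  have h3 : ∑ f ∈ R, dv S0 f * φ f ≤ s * ∑ f ∈ R, |dv S0 f| := by
    rw [Finset.mul_sum]
    refine Finset.sum_le_sum fun f _ => ?_
    calc dv S0 f * φ f ≤ |dv S0 f * φ f| := le_abs_self _
      _ = |φ f| * |dv S0 f| := by rw [abs_mul, mul_comm]
      _ ≤ s * |dv S0 f| := mul_le_mul_of_nonneg_right (hs _) (abs_nonneg _)
  have h4 : -∑ e ∈ bd R, Y * ((S0 e - dr t e / Y) * dr φ e) ≤
      Y ^ 2 / 2 * ∑ e ∈ bd R, (S0 e - dr t e / Y) ^ 2 + 1 / 2 * ∑ e ∈ bd R, (dr φ e) ^ 2 := by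
    rw [← Finset.sum_neg_distrib, Finset.mul_sum, Finset.mul_sum, ← Finset.sum_add_distrib]
    refine Finset.sum_le_sum fun e _ => ?_
    nlinarith [sq_nonneg (Y * (S0 e - dr t e / Y) + dr φ e)]
  have h5 : Y * ∑ f ∈ R, dv S0 f * φ f ≤ Y * (s * ∑ f ∈ R, |dv S0 f|) :=
    mul_le_mul_of_nonneg_left h3 hY.le
  nlinarith

/-! ### distance to the complement -/

/-- `f` is within distance `m` of the complement of `R` -/
def near (R : Finset Z2) (m : ℕ) (f : Z2) : Prop :=
  ∃ g, g ∉ R ∧ |f.1 - g.1| ≤ m ∧ |f.2 - g.2| ≤ m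

lemma near_exists (R : Finset Z2) (f : Z2) : ∃ m, near R m f := by
  obtain ⟨g, hg⟩ := Infinite.exists_notMem_finset R
  refine ⟨(|f.1 - g.1| + |f.2 - g.2|).toNat, g, hg, ?_, ?_⟩
  · have := abs_nonneg (f.1 - g.1)
    have := abs_nonneg (f.2 - g.2)
    omega
  · have := abs_nonneg (f.1 - g.1)
    have := abs_nonneg (f.2 - g.2)
    omega

lemma near_mono {R : Finset Z2} {m m' : ℕ} (h : m ≤ m') {f : Z2} (hf : near R m f) :
    near R m' f := by
  obtain ⟨g, hg, h1, h2⟩ := hf
  have : (m : ℤ) ≤ m' := by exact_mod_cast h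
  exact ⟨g, hg, h1.trans this, h2.trans this⟩

lemma near_shift {R : Finset Z2} {m k : ℕ} {f f' : Z2} (hf : near R m f) (h1 : |f'.1 - f.1| ≤ k)
    (h2 : |f'.2 - f.2| ≤ k) : near R (m + k) f' := by
  obtain ⟨g, hg, h3, h4⟩ := hf
  refine ⟨g, hg, ?_, ?_⟩ <;> rw [abs_le] at * <;> push_cast <;> omega

open Classical in
/-- distance to the complement -/
noncomputable def dst (R : Finset Z2) (f : Z2) : ℕ := Nat.find (near_exists R f)

lemma dst_le_iff {R : Finset Z2} {f : Z2} {m : ℕ} : dst R f ≤ m ↔ near R m f := by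
  classical
  constructor
  · intro h
    exact near_mono h (Nat.find_spec (near_exists R f))
  · intro h
    exact Nat.find_min' _ h

lemma dst_lip {R : Finset Z2} {f f' : Z2} {k : ℕ} (h1 : |f'.1 - f.1| ≤ k) (h2 : |f'.2 - f.2| ≤ k) :
    dst R f' ≤ dst R f + k :=
  dst_le_iff.2 (near_shift (dst_le_iff.1 le_rfl) h1 h2)

lemma mem_of_dst {R : Finset Z2} {f : Z2} (h : 0 < dst R f) : f ∈ R := by
  by_contra hf
  have : near R 0 f := ⟨f, hf, by simp, by simp⟩
  have := dst_le_iff.2 this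
  omega

lemma dst_zero {R : Finset Z2} {f : Z2} (h : f ∉ R) : dst R f = 0 := by
  by_contra hf
  exact h (mem_of_dst (Nat.pos_of_ne_zero hf))

lemma lr_close (e : Bnd) : |(lf e).1 - (rt e).1| ≤ 1 ∧ |(lf e).2 - (rt e).2| ≤ 1 := by
  obtain ⟨⟨i, j⟩, c⟩ := e
  unfold lf rt
  cases c <;> simp

/-- the cut-off: `0` at distance `≤ l + 1`, `1` at distance `≥ l + 1 + M` -/
noncomputable def cut (R : Finset Z2) (l M : ℕ) (f : Z2) : ℝ :=
  min 1 (max 0 (((dst R f : ℝ) - l - 1) / M))

lemma cut_nonneg (R : Finset Z2) (l M : ℕ) (f : Z2) : 0 ≤ cut R l M f := by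
  unfold cut
  exact le_min zero_le_one (le_max_left _ _)

lemma cut_zero {R : Finset Z2} {l M : ℕ} {f : Z2} (h : dst R f ≤ l + 1) : cut R l M f = 0 := by
  unfold cut
  have h1 : ((dst R f : ℝ) - l - 1) / M ≤ 0 := by
    refine div_nonpos_of_nonpos_of_nonneg ?_ (Nat.cast_nonneg _)
    have : (dst R f : ℝ) ≤ l + 1 := by exact_mod_cast h
    linarith
  rw [max_eq_left h1, min_eq_right zero_le_one]

lemma cut_one {R : Finset Z2} {l M : ℕ} (hM : 0 < M) {f : Z2} (h : l + 1 + M ≤ dst R f) :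
    cut R l M f = 1 := by
  unfold cut
  have hM' : (0 : ℝ) < M := by exact_mod_cast hM
  have h1 : 1 ≤ ((dst R f : ℝ) - l - 1) / M := by
    rw [le_div_iff₀ hM']
    have : (l : ℝ) + 1 + M ≤ dst R f := by exact_mod_cast h
    linarith
  rw [min_eq_left]
  exact h1.trans (le_max_right _ _)

lemma cut_lip (R : Finset Z2) (l : ℕ) {M : ℕ} (hM : 0 < M) (e : Bnd) :
    |dr (cut R l M) e| ≤ 1 / M := by
  have hM' : (0 : ℝ) < M := by exact_mod_cast hM
  have h1 : |((dst R (lf e) : ℝ) - dst R (rt e))| ≤ 1 := by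
    have h2 := dst_lip (R := R) (f := rt e) (f' := lf e) (k := 1) (by exact_mod_cast (lr_close e).1)
      (by exact_mod_cast (lr_close e).2)
    have h3 := dst_lip (R := R) (f := lf e) (f' := rt e) (k := 1)
      (by rw [abs_sub_comm]; exact_mod_cast (lr_close e).1)
      (by rw [abs_sub_comm]; exact_mod_cast (lr_close e).2)
    have h2' : (dst R (lf e) : ℝ) ≤ dst R (rt e) + 1 := by exact_mod_cast h2
    have h3' : (dst R (rt e) : ℝ) ≤ dst R (lf e) + 1 := by exact_mod_cast h3
    rw [abs_le]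
    constructor <;> linarith
  unfold dr cut
  set x := ((dst R (lf e) : ℝ) - l - 1) / M
  set y := ((dst R (rt e) : ℝ) - l - 1) / M
  have h2 : |x - y| ≤ 1 / M := by
    have : x - y = ((dst R (lf e) : ℝ) - dst R (rt e)) / M := by
      simp only [x, y]
      ring
    rw [this, abs_div, abs_of_pos hM']
    exact div_le_div_of_nonneg_right h1 hM'.le
  calc |min 1 (max 0 x) - min 1 (max 0 y)| ≤ |max 0 x - max 0 y| := by
        have := abs_min_sub_min_le_max 1 (max 0 x) 1 (max 0 y)
        simpa using this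
    _ ≤ |x - y| := by
        have := abs_max_sub_max_le_max 0 x 0 y
        simpa using this
    _ ≤ 1 / M := h2

/-! ### Caccioppoli -/

lemma cacc_bond (a b p q : ℝ) :
    (p ^ 2 + q ^ 2) / 2 * (a - b) ^ 2 ≤
      2 * ((a - b) * (p ^ 2 * a - q ^ 2 * b)) + 2 * (p - q) ^ 2 * (a ^ 2 + b ^ 2) := by
  nlinarith [sq_nonneg ((p - q) * (a + b) + (p + q) / 2 * (a - b)), sq_nonneg ((p - q) * (a - b)),
    sq_nonneg ((p + q) * (a - b)), sq_nonneg ((p - q) * (a + b))]

/-- **Caccioppoli inequality** -/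
theorem cacc {R : Finset Z2} {g χ : Z2 → ℝ} (hχ : ∀ f, f ∉ R → χ f = 0)
    (hg : ∀ f ∈ R, χ f ≠ 0 → Lp g f = 0) :
    ∑ e ∈ bd R, (χ (lf e) ^ 2 + χ (rt e) ^ 2) / 2 * (dr g e) ^ 2 ≤
      2 * ∑ e ∈ bd R, (dr χ e) ^ 2 * (g (lf e) ^ 2 + g (rt e) ^ 2) := by
  have h0 : ∑ e ∈ bd R, dr g e * dr (fun f => χ f ^ 2 * g f) e = 0 := by
    rw [green (dr g) (φ := fun f => χ f ^ 2 * g f) (fun f hf => by rw [hχ f hf]; ring)]
    refine Finset.sum_eq_zero fun f hf => ?_
    by_cases h : χ f = 0
    · rw [h]; ring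
    · rw [dv_dr, hg f hf h]; ring
  have h1 : ∑ e ∈ bd R, (χ (lf e) ^ 2 + χ (rt e) ^ 2) / 2 * (dr g e) ^ 2 ≤
      ∑ e ∈ bd R, (2 * (dr g e * dr (fun f => χ f ^ 2 * g f) e) +
        2 * ((dr χ e) ^ 2 * (g (lf e) ^ 2 + g (rt e) ^ 2))) := by
    refine Finset.sum_le_sum fun e _ => ?_
    have := cacc_bond (g (lf e)) (g (rt e)) (χ (lf e)) (χ (rt e))
    unfold dr
    linarith
  rw [Finset.sum_add_distrib, ← Finset.mul_sum, ← Finset.mul_sum, h0] at h1
  linarith

/-- the increment by `w` -/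
def inc (w : Z2) (v : Z2 → ℝ) (f : Z2) : ℝ := v (f + w) - v f

lemma Lp_inc (w : Z2) (v : Z2 → ℝ) (f : Z2) : Lp (inc w v) f = Lp v (f + w) - Lp v f := by
  obtain ⟨a, b⟩ := f
  obtain ⟨c, d⟩ := w
  unfold Lp inc
  simp only [Prod.mk_add_mk]
  have e1 : a + 1 + c = a + c + 1 := by ring
  have e2 : a - 1 + c = a + c - 1 := by ring
  have e3 : b + 1 + d = b + d + 1 := by ring
  have e4 : b - 1 + d = b + d - 1 := by ring
  rw [e1, e2, e3, e4]
  ring

lemma lf_sh (u : Z2) (e : Bnd) : lf (sh u e) = lf e + u := by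
  obtain ⟨⟨i, j⟩, c⟩ := e
  obtain ⟨a, b⟩ := u
  unfold lf sh
  cases c
  · simp
  · simp only [if_true, Prod.mk_add_mk, Prod.mk.injEq, and_true]
    omega

lemma rt_sh (u : Z2) (e : Bnd) : rt (sh u e) = rt e + u := by
  obtain ⟨⟨i, j⟩, c⟩ := e
  obtain ⟨a, b⟩ := u
  unfold rt sh
  cases c
  · simp only [Bool.false_eq_true, if_false, Prod.mk_add_mk, Prod.mk.injEq, true_and]
    omega
  · simp

lemma dr_sh (u : Z2) (v : Z2 → ℝ) (e : Bnd) : dr v (sh u e) - dr v e = dr (inc u v) e := by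
  unfold dr inc
  rw [lf_sh, rt_sh]
  ring

lemma sum_step {R : Finset Z2} (v : Z2 → ℝ) {F : Finset Z2} (φ : Z2 → Bnd)
    (hi : Function.Injective φ) (hm : ∀ f ∈ F, φ f ∈ bd R) :
    ∑ f ∈ F, (dr v (φ f)) ^ 2 ≤ ∑ e ∈ bd R, (dr v e) ^ 2 := by
  classical
  rw [← Finset.sum_image (f := fun e => (dr v e) ^ 2) (s := F) (g := φ)
    (fun x _ y _ h => hi h)]
  refine Finset.sum_le_sum_of_subset_of_nonneg ?_ fun _ _ _ => sq_nonneg _
  intro e he
  obtain ⟨f, hf, rfl⟩ := Finset.mem_image.1 he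
  exact hm f hf

lemma mem_of_far {R : Finset Z2} {l : ℕ} {f w : Z2} (h : l < dst R f) (h1 : |w.1| ≤ l)
    (h2 : |w.2| ≤ l) : f + w ∈ R := by
  refine mem_of_dst ?_
  have := dst_lip (R := R) (f := f + w) (f' := f) (k := l)
    (by simp only [Prod.fst_add]; rw [abs_le] at *; omega)
    (by simp only [Prod.snd_add]; rw [abs_le] at *; omega)
  omega

theorem inc_bound {R : Finset Z2} (v : Z2 → ℝ) {F : Finset Z2} {l : ℕ}
    (hF : ∀ f ∈ F, l < dst R f) : ∀ (n : ℕ) (w : Z2), |w.1| + |w.2| = n → |w.1| ≤ l → |w.2| ≤ l →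
    ∑ f ∈ F, (inc w v f) ^ 2 ≤ (n : ℝ) ^ 2 * ∑ e ∈ bd R, (dr v e) ^ 2 := by
  intro n
  induction n with
  | zero =>
    intro w h _ _
    have h1 : w = 0 := by
      have := abs_nonneg w.1
      have := abs_nonneg w.2
      ext
      · have : |w.1| = 0 := by push_cast at h; omega
        simpa using this
      · have : |w.2| = 0 := by push_cast at h; omega
        simpa using this
    subst h1
    refine le_of_eq ?_
    rw [Finset.sum_eq_zero]
    · simp
    · intro f _
      simp [inc]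
  | succ n ih =>
    intro w h h1 h2
    -- the last step
    have key : ∀ (w' : Z2) (φ : Z2 → Bnd), |w'.1| + |w'.2| = n → |w'.1| ≤ l → |w'.2| ≤ l →
        Function.Injective φ → (∀ f ∈ F, φ f ∈ bd R) →
        (∀ f, (inc w v f - inc w' v f) ^ 2 = (dr v (φ f)) ^ 2) →
        ∑ f ∈ F, (inc w v f) ^ 2 ≤ ((n + 1 : ℕ) : ℝ) ^ 2 * ∑ e ∈ bd R, (dr v e) ^ 2 := by
      intro w' φ k0 k1 k2 k3 k4 k5
      have i1 := ih w' k0 k1 k2
      have i2 := sum_step (R := R) v φ k3 k4
      set D := ∑ e ∈ bd R, (dr v e) ^ 2 with hD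
      have hD0 : 0 ≤ D := Finset.sum_nonneg fun _ _ => sq_nonneg _
      rcases Nat.eq_zero_or_pos n with hn | hn
      · subst hn
        have hw0 : w' = 0 := by
          have := abs_nonneg w'.1
          have := abs_nonneg w'.2
          ext
          · have : |w'.1| = 0 := by push_cast at k0; omega
            simpa using this
          · have : |w'.2| = 0 := by push_cast at k0; omega
            simpa using this
        have i3 : ∀ f, (inc w v f) ^ 2 = (dr v (φ f)) ^ 2 := by
          intro f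
          rw [← k5 f, hw0]
          simp [inc]
        rw [Finset.sum_congr rfl fun f _ => i3 f]
        simpa using i2
      · have hn' : (0 : ℝ) < n := by exact_mod_cast hn
        have i3 : ∑ f ∈ F, (inc w v f) ^ 2 ≤ ∑ f ∈ F, ((1 + 1 / (n : ℝ)) * (inc w' v f) ^ 2 +
            (1 + n) * (dr v (φ f)) ^ 2) := by
          refine Finset.sum_le_sum fun f _ => ?_
          rw [← k5 f]
          set x := inc w' v f
          set y := inc w v f - inc w' v f with hy
          have e1 : inc w v f = x + y := by rw [hy]; ring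
          rw [e1]
          have e2 : (1 + 1 / (n : ℝ)) * x ^ 2 + (1 + n) * y ^ 2 - (x + y) ^ 2 =
              (x - n * y) ^ 2 / n := by
            field_simp
            ring
          have e3 : 0 ≤ (x - n * y) ^ 2 / (n : ℝ) := by positivity
          linarith
        rw [Finset.sum_add_distrib, ← Finset.mul_sum, ← Finset.mul_sum] at i3
        have i4 : (1 + 1 / (n : ℝ)) * ∑ f ∈ F, (inc w' v f) ^ 2 ≤
            (1 + 1 / (n : ℝ)) * ((n : ℝ) ^ 2 * D) :=
          mul_le_mul_of_nonneg_left i1 (by positivity)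
        have i5 : (1 + (n : ℝ)) * ∑ f ∈ F, (dr v (φ f)) ^ 2 ≤ (1 + n) * D :=
          mul_le_mul_of_nonneg_left i2 (by positivity)
        have i6 : (1 + 1 / (n : ℝ)) * ((n : ℝ) ^ 2 * D) = ((n : ℝ) ^ 2 + n) * D := by
          field_simp
        push_cast
        nlinarith
    obtain ⟨a, b⟩ := w
    simp only at h h1 h2
    have inR : ∀ f ∈ F, ∀ w : Z2, |w.1| ≤ l → |w.2| ≤ l → f + w ∈ R :=
      fun f hf w k1 k2 => mem_of_far (hF f hf) k1 k2
    rcases lt_trichotomy a 0 with ha | ha | ha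
    · refine key (a + 1, b) (fun f => ((f.1 + (a + 1), f.2 + b), true)) ?_ ?_ h2 ?_ ?_ ?_
      · simp only
        rw [abs_of_neg ha] at h
        rw [abs_of_nonpos (by omega)]
        push_cast at h
        omega
      · simp only
        rw [abs_le] at *
        omega
      · intro f g hfg
        simp only [Prod.mk.injEq, and_true] at hfg
        ext <;> omega
      · intro f hf
        rw [mem_bd]
        right
        exact inR f hf (a + 1, b) (by simp only; rw [abs_le] at *; omega) h2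
      · intro f
        unfold inc dr lf rt
        simp only [if_true]
        have e1 : f + (a, b) = (f.1 + (a + 1) - 1, f.2 + b) := by
          ext
          · simp only [Prod.fst_add]; omega
          · simp only [Prod.snd_add]
        have e2 : f + (a + 1, b) = (f.1 + (a + 1), f.2 + b) := rfl
        rw [e1, e2]
        ring
    · subst ha
      rcases lt_trichotomy b 0 with hb | hb | hb
      · refine key (0, b + 1) (fun f => ((f.1, f.2 + (b + 1)), false)) ?_ h1 ?_ ?_ ?_ ?_
        · simp only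
          rw [abs_of_neg hb] at h
          rw [abs_of_nonpos (by omega : b + 1 ≤ 0)]
          push_cast at h
          simp only [abs_zero] at h ⊢
          omega
        · simp only
          rw [abs_le] at *
          omega
        · intro f g hfg
          simp only [Prod.mk.injEq, and_true] at hfg
          ext <;> omega
        · intro f hf
          rw [mem_bd]
          left
          have := inR f hf (0, b + 1) h1 (by simp only; rw [abs_le] at *; omega)
          have e : f + (0, b + 1) = (f.1, f.2 + (b + 1)) := by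
            ext
            · simp
            · simp
          rw [e] at this
          exact this
        · intro f
          unfold inc dr lf rt
          simp only [Bool.false_eq_true, if_false]
          have e1 : f + (0, b) = (f.1, f.2 + (b + 1) - 1) := by
            ext
            · simp
            · simp only [Prod.snd_add]; omega
          have e2 : f + (0, b + 1) = (f.1, f.2 + (b + 1)) := by
            ext
            · simp
            · simp
          rw [e1, e2]
          ring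
      · subst hb
        push_cast at h
        simp only [abs_zero] at h
        omega
      · refine key (0, b - 1) (fun f => ((f.1, f.2 + b), false)) ?_ h1 ?_ ?_ ?_ ?_
        · simp only
          rw [abs_of_pos hb] at h
          rw [abs_of_nonneg (by omega : 0 ≤ b - 1)]
          push_cast at h
          simp only [abs_zero] at h ⊢
          omega
        · simp only
          rw [abs_le] at *
          omega
        · intro f g hfg
          simp only [Prod.mk.injEq, and_true] at hfg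
          ext <;> omega
        · intro f hf
          rw [mem_bd]
          left
          have := inR f hf (0, b) h1 h2
          have e : f + (0, b) = (f.1, f.2 + b) := by
            ext
            · simp
            · simp
          rw [e] at this
          exact this
        · intro f
          unfold inc dr lf rt
          simp only [Bool.false_eq_true, if_false]
          have e1 : f + (0, b) = (f.1, f.2 + b) := by
            ext
            · simp
            · simp
          have e2 : f + (0, b - 1) = (f.1, f.2 + b - 1) := by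
            ext
            · simp
            · simp only [Prod.snd_add]; omega
          rw [e1, e2]
          ring
    · refine key (a - 1, b) (fun f => ((f.1 + a, f.2 + b), true)) ?_ ?_ h2 ?_ ?_ ?_
      · simp only
        rw [abs_of_pos ha] at h
        rw [abs_of_nonneg (by omega)]
        push_cast at h
        omega
      · simp only
        rw [abs_le] at *
        omega
      · intro f g hfg
        simp only [Prod.mk.injEq, and_true] at hfg
        ext <;> omega
      · intro f hf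
        rw [mem_bd]
        right
        exact inR f hf (a, b) h1 h2
      · intro f
        unfold inc dr lf rt
        simp only [if_true]
        have e1 : f + (a - 1, b) = (f.1 + a - 1, f.2 + b) := by
          ext
          · simp only [Prod.fst_add]; omega
          · simp only [Prod.snd_add]
        have e2 : f + (a, b) = (f.1 + a, f.2 + b) := rfl
        rw [e1, e2]
        ring

/-! ### the far part -/

open Classical in
lemma sum_both {R F : Finset Z2} (hF : F ⊆ R) (g : Z2 → ℝ) :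
    ∑ e ∈ bd R, ((if lf e ∈ F then g (lf e) ^ 2 else 0) +
      (if rt e ∈ F then g (rt e) ^ 2 else 0)) = 4 * ∑ f ∈ F, g f ^ 2 := by
  have h1 := sum_lf R (fun _ => 1) (fun f => if f ∈ F then g f ^ 2 else 0)
    (fun f hf => if_neg fun h => hf (hF h))
  have h2 := sum_rt R (fun _ => 1) (fun f => if f ∈ F then g f ^ 2 else 0)
    (fun f hf => if_neg fun h => hf (hF h))
  have h3 : ∑ f ∈ R, ((1 : ℝ) + 1) * (if f ∈ F then g f ^ 2 else 0) = 2 * ∑ f ∈ F, g f ^ 2 := by
    rw [← Finset.mul_sum, ← Finset.sum_filter, Finset.filter_mem_eq_inter,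
      Finset.inter_eq_right.2 hF]
    norm_num
  rw [h3] at h1 h2
  simp only [one_mul] at h1 h2
  rw [Finset.sum_add_distrib, h1, h2]
  ring

/-- the increments of a harmonic function far from the boundary -/
theorem far_sum {R : Finset Z2} {v : Z2 → ℝ} (hL : ∀ f ∈ R, Lp v f = 0) {l M : ℕ} (hM : 0 < M)
    {w : Z2} (h1 : |w.1| ≤ l) (h2 : |w.2| ≤ l) {S : Finset Bnd}
    (hS : ∀ e ∈ S, l + 1 + M ≤ dst R (lf e) ∧ l + 1 + M ≤ dst R (rt e)) :
    ∑ e ∈ S, (dr v (sh w e) - dr v e) ^ 2 ≤
      32 * (l : ℝ) ^ 2 / (M : ℝ) ^ 2 * ∑ e ∈ bd R, (dr v e) ^ 2 := by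
  classical
  have hM' : (0 : ℝ) < M := by exact_mod_cast hM
  set χ := cut R l M with hχdef
  set g := inc w v with hg
  have hχR : ∀ f, f ∉ R → χ f = 0 := fun f hf => cut_zero (by rw [dst_zero hf]; omega)
  have hχd : ∀ f, χ f ≠ 0 → l + 1 < dst R f := by
    intro f hf
    by_contra h
    exact hf (cut_zero (by omega))
  have c1 := cacc (R := R) (g := g) (χ := χ) hχR (by
    intro f hf hc
    rw [hg, Lp_inc, hL f hf, hL _ (mem_of_far (by have := hχd f hc; omega) h1 h2), sub_zero])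
  -- the set of far faces
  set F := R.filter (fun f => l < dst R f) with hF
  have hFR : F ⊆ R := Finset.filter_subset _ _
  have c2 : ∑ e ∈ bd R, (dr χ e) ^ 2 * (g (lf e) ^ 2 + g (rt e) ^ 2) ≤
      1 / (M : ℝ) ^ 2 * (4 * ∑ f ∈ F, g f ^ 2) := by
    rw [← sum_both hFR g, Finset.mul_sum]
    refine Finset.sum_le_sum fun e _ => ?_
    by_cases h0 : dr χ e = 0
    · rw [h0]
      have : 0 ≤ (if lf e ∈ F then g (lf e) ^ 2 else 0) +
          (if rt e ∈ F then g (rt e) ^ 2 else 0) := by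
        split_ifs <;> positivity
      have h3 : 0 ≤ 1 / (M : ℝ) ^ 2 := by positivity
      nlinarith [mul_nonneg h3 this]
    · have h3 : l < dst R (lf e) ∧ l < dst R (rt e) := by
        have k1 := lr_close e
        have k2 := dst_lip (R := R) (f := rt e) (f' := lf e) (k := 1) (by exact_mod_cast k1.1)
          (by exact_mod_cast k1.2)
        have k3 := dst_lip (R := R) (f := lf e) (f' := rt e) (k := 1)
          (by rw [abs_sub_comm]; exact_mod_cast k1.1)
          (by rw [abs_sub_comm]; exact_mod_cast k1.2)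
        by_cases k4 : χ (lf e) = 0
        · have k5 : χ (rt e) ≠ 0 := by
            intro k6
            apply h0
            unfold dr
            rw [k4, k6, sub_self]
          have := hχd _ k5
          omega
        · have := hχd _ k4
          omega
      have h4 : lf e ∈ F := by
        rw [hF, Finset.mem_filter]
        exact ⟨mem_of_dst (by omega), h3.1⟩
      have h5 : rt e ∈ F := by
        rw [hF, Finset.mem_filter]
        exact ⟨mem_of_dst (by omega), h3.2⟩
      rw [if_pos h4, if_pos h5]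
      have h6 : (dr χ e) ^ 2 ≤ 1 / (M : ℝ) ^ 2 := by
        have h7 := cut_lip R l hM e
        rw [← hχdef] at h7
        rw [← sq_abs, ← one_div_pow]
        exact pow_le_pow_left₀ (abs_nonneg _) h7 2
      exact mul_le_mul_of_nonneg_right h6 (by positivity)
  have c3 : ∑ f ∈ F, g f ^ 2 ≤ (2 * l : ℝ) ^ 2 * ∑ e ∈ bd R, (dr v e) ^ 2 := by
    have k0 : ((|w.1| + |w.2|).toNat : ℤ) = |w.1| + |w.2| :=
      Int.toNat_of_nonneg (by have := abs_nonneg w.1; have := abs_nonneg w.2; omega)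
    have k1 := inc_bound (R := R) v (F := F) (l := l)
      (fun f hf => (Finset.mem_filter.1 hf).2) (|w.1| + |w.2|).toNat w k0.symm h1 h2
    have k2 : ((|w.1| + |w.2|).toNat : ℝ) ≤ 2 * l := by
      have : (|w.1| + |w.2|).toNat ≤ 2 * l := by omega
      exact_mod_cast this
    refine k1.trans (mul_le_mul_of_nonneg_right ?_ (Finset.sum_nonneg fun _ _ => sq_nonneg _))
    exact pow_le_pow_left₀ (Nat.cast_nonneg _) k2 2
  have c4 : ∑ e ∈ S, (dr v (sh w e) - dr v e) ^ 2 ≤
      ∑ e ∈ bd R, (χ (lf e) ^ 2 + χ (rt e) ^ 2) / 2 * (dr g e) ^ 2 := by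
    have k1 : ∀ e ∈ S, (dr v (sh w e) - dr v e) ^ 2 =
        (χ (lf e) ^ 2 + χ (rt e) ^ 2) / 2 * (dr g e) ^ 2 := by
      intro e he
      rw [dr_sh, hχdef, cut_one hM (hS e he).1, cut_one hM (hS e he).2]
      ring
    rw [Finset.sum_congr rfl k1]
    refine Finset.sum_le_sum_of_subset_of_nonneg ?_ fun _ _ _ => by positivity
    intro e he
    rw [mem_bd]
    exact Or.inl (mem_of_dst (by have := (hS e he).1; omega))
  calc _ ≤ _ := c4
    _ ≤ 2 * ∑ e ∈ bd R, (dr χ e) ^ 2 * (g (lf e) ^ 2 + g (rt e) ^ 2) := c1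
    _ ≤ 2 * (1 / (M : ℝ) ^ 2 * (4 * ((2 * l : ℝ) ^ 2 * ∑ e ∈ bd R, (dr v e) ^ 2))) := by
        refine mul_le_mul_of_nonneg_left (c2.trans ?_) (by norm_num)
        refine mul_le_mul_of_nonneg_left ?_ (by positivity)
        exact mul_le_mul_of_nonneg_left c3 (by norm_num)
    _ = _ := by
        ring

/-! ### (P3) -/

/-- truncation -/
noncomputable def tr (s x : ℝ) : ℝ := max (-s) (min x s)

lemma tr_mono (s : ℝ) : Monotone (tr s) := fun x y h => by
  unfold tr
  exact max_le_max le_rfl (min_le_min h le_rfl)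

lemma tr_lip (s x y : ℝ) : |tr s x - tr s y| ≤ |x - y| := by
  unfold tr
  calc |max (-s) (min x s) - max (-s) (min y s)| ≤ |min x s - min y s| := by
        have := abs_max_sub_max_le_max (-s) (min x s) (-s) (min y s)
        simpa using this
    _ ≤ |x - y| := by
        have := abs_min_sub_min_le_max x s y s
        simpa using this

lemma tr_abs {s : ℝ} (hs : 0 ≤ s) (x : ℝ) : |tr s x| ≤ s := by
  unfold tr
  rw [abs_le]
  exact ⟨le_max_left _ _, max_le (by linarith) (min_le_right _ _)⟩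

lemma tr_id {s x : ℝ} (h : |x| ≤ s) : tr s x = x := by
  rw [abs_le] at h
  unfold tr
  rw [min_eq_left h.2, max_eq_right h.1]

lemma osc_split (l : ℕ) (S : Finset Bnd) (B : Bnd → ℝ) :
    osc l S B = ∑ u ∈ Finset.Icc (-(l : ℤ), -(l : ℤ)) ((l : ℤ), (l : ℤ)),
      ∑ e ∈ S, (B (sh u e) - B e) ^ 2 := by
  unfold osc
  exact Finset.sum_comm

lemma card_box (l : ℕ) :
    ((Finset.Icc (-(l : ℤ), -(l : ℤ)) ((l : ℤ), (l : ℤ))).card : ℝ) = (2 * l + 1) ^ 2 := by
  rw [← Finset.Icc_product_Icc, Finset.card_product, Int.card_Icc]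
  have : ((l : ℤ) + 1 - -(l : ℤ)).toNat = 2 * l + 1 := by omega
  rw [this]
  push_cast
  ring

lemma sh_inj (u : Z2) : Function.Injective (sh u) := by
  intro e e' h
  unfold sh at h
  simp only [Prod.mk.injEq, add_left_inj] at h
  exact Prod.ext h.1 h.2

/-- **(P3)**: the oscillation of the field `S0 - (1/Y) ∇v` where `v` is the harmonic function of
a rough domain with the boundary values `t` -/
theorem osc_bound {R : Finset Z2} {t v : Z2 → ℝ} {S0 : Bnd → ℝ} {Y : ℝ} (hY : 0 < Y)
    (hv : ∀ f, f ∉ R → v f = t f) (hL : ∀ f ∈ R, Lp v f = 0) {ω E1 : ℝ} (hω0 : 0 ≤ ω)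
    (hE : ∀ S' : Finset Bnd, ∑ e ∈ S', (S0 e - dr t e / Y) ^ 2 ≤ E1) {l M : ℕ} (hM : 0 < M)
    (hω : ∀ f, near R (2 * l + 1 + M) f → |t f - v f| ≤ ω) (S : Finset Bnd) :
    osc l S (fun e => S0 e - dr v e / Y) ≤
      2 * osc l S S0 + (2 * l + 1) ^ 2 * (64 * (l : ℝ) ^ 2 / (Y ^ 2 * (M : ℝ) ^ 2) *
        ∑ e ∈ bd R, (dr v e) ^ 2 + 16 * (E1 + ω * (∑ f ∈ R, |dv S0 f|) / Y)) := by
  classical
  set B : Bnd → ℝ := fun e => S0 e - dr v e / Y with hB
  set D := ∑ e ∈ bd R, (dr v e) ^ 2 with hD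
  set P := ∑ f ∈ R, |dv S0 f| with hP
  set T : Z2 → ℝ := fun f => tr ω (t f - v f) with hT
  have hP0 : 0 ≤ P := Finset.sum_nonneg fun _ _ => abs_nonneg _
  -- the energy of the truncated potential
  have hX : ∀ S' : Finset Bnd, ∑ e ∈ S', (dr T e) ^ 2 ≤ 2 * Y * ω * P + Y ^ 2 * E1 := by
    intro S'
    have k1 : ∑ e ∈ S', (dr T e) ^ 2 ≤ ∑ e ∈ bd R, (dr T e) ^ 2 := by
      have k2 : ∑ e ∈ S', (dr T e) ^ 2 = ∑ e ∈ S' ∩ bd R, (dr T e) ^ 2 := by
        symm
        refine Finset.sum_subset Finset.inter_subset_left fun e he hne => ?_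
        have k3 : e ∉ bd R := fun h => hne (Finset.mem_inter.2 ⟨he, h⟩)
        rw [mem_bd] at k3
        push Not at k3
        have k4 : T (lf e) = 0 := by
          simp only [hT]
          rw [hv _ k3.1, sub_self]
          exact tr_id (by rw [abs_zero]; exact hω0)
        have k5 : T (rt e) = 0 := by
          simp only [hT]
          rw [hv _ k3.2, sub_self]
          exact tr_id (by rw [abs_zero]; exact hω0)
        unfold dr
        rw [k4, k5]
        norm_num
      rw [k2]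
      exact Finset.sum_le_sum_of_subset_of_nonneg Finset.inter_subset_right
        fun _ _ _ => sq_nonneg _
    refine k1.trans ((energy_H hY hv hL (S0 := S0) (H := tr ω)
      (tr_id (by rw [abs_zero]; exact hω0)) (tr_mono ω) (tr_lip ω) (tr_abs hω0)).trans ?_)
    have k3 := hE (bd R)
    have : Y ^ 2 * ∑ e ∈ bd R, (S0 e - dr t e / Y) ^ 2 ≤ Y ^ 2 * E1 :=
      mul_le_mul_of_nonneg_left k3 (by positivity)
    linarith
  -- the field near the complement
  have hnear : ∀ e, near R (2 * l + 1 + M) (lf e) → near R (2 * l + 1 + M) (rt e) →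
      B e ^ 2 ≤ 2 * (S0 e - dr t e / Y) ^ 2 + 2 / Y ^ 2 * (dr T e) ^ 2 := by
    intro e k1 k2
    have k3 : dr T e = dr t e - dr v e := by
      unfold dr
      simp only [hT]
      rw [tr_id (hω _ k1), tr_id (hω _ k2)]
      ring
    rw [k3]
    simp only [hB]
    have k4 : S0 e - dr v e / Y = (S0 e - dr t e / Y) + (dr t e - dr v e) / Y := by
      field_simp
      ring
    rw [k4]
    have k5 : 2 / Y ^ 2 * (dr t e - dr v e) ^ 2 = 2 * ((dr t e - dr v e) / Y) ^ 2 := by
      field_simp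
    rw [k5]
    nlinarith [sq_nonneg ((S0 e - dr t e / Y) - (dr t e - dr v e) / Y)]
  have hsumB : ∀ S' : Finset Bnd, (∀ e ∈ S', near R (2 * l + 1 + M) (lf e) ∧
      near R (2 * l + 1 + M) (rt e)) → ∑ e ∈ S', B e ^ 2 ≤ 4 * (E1 + ω * P / Y) := by
    intro S' hS'
    calc ∑ e ∈ S', B e ^ 2 ≤ ∑ e ∈ S', (2 * (S0 e - dr t e / Y) ^ 2 + 2 / Y ^ 2 * (dr T e) ^ 2) :=
          Finset.sum_le_sum fun e he => hnear e (hS' e he).1 (hS' e he).2
      _ = 2 * ∑ e ∈ S', (S0 e - dr t e / Y) ^ 2 + 2 / Y ^ 2 * ∑ e ∈ S', (dr T e) ^ 2 := by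
          rw [Finset.sum_add_distrib, ← Finset.mul_sum, ← Finset.mul_sum]
      _ ≤ 2 * E1 + 2 / Y ^ 2 * (2 * Y * ω * P + Y ^ 2 * E1) :=
          add_le_add (mul_le_mul_of_nonneg_left (hE S') (by norm_num))
            (mul_le_mul_of_nonneg_left (hX S') (by positivity))
      _ = 4 * (E1 + ω * P / Y) := by
          field_simp
          ring
  rw [osc_split, osc_split]
  -- one translation
  have one : ∀ u ∈ Finset.Icc (-(l : ℤ), -(l : ℤ)) ((l : ℤ), (l : ℤ)),
      ∑ e ∈ S, (B (sh u e) - B e) ^ 2 ≤ 2 * ∑ e ∈ S, (S0 (sh u e) - S0 e) ^ 2 +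
        (64 * (l : ℝ) ^ 2 / (Y ^ 2 * (M : ℝ) ^ 2) * D + 16 * (E1 + ω * P / Y)) := by
    intro u hu
    rw [Finset.mem_Icc, Prod.le_def, Prod.le_def] at hu
    simp only at hu
    have u1 : |u.1| ≤ l := abs_le.2 ⟨hu.1.1, hu.2.1⟩
    have u2 : |u.2| ≤ l := abs_le.2 ⟨hu.1.2, hu.2.2⟩
    set Sf := S.filter (fun e => l + 1 + M ≤ dst R (lf e) ∧ l + 1 + M ≤ dst R (rt e)) with hSf
    set Sn := S.filter (fun e => ¬(l + 1 + M ≤ dst R (lf e) ∧ l + 1 + M ≤ dst R (rt e))) with hSn
    rw [← Finset.sum_filter_add_sum_filter_not S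
      (fun e => l + 1 + M ≤ dst R (lf e) ∧ l + 1 + M ≤ dst R (rt e))]
    have f1 : ∑ e ∈ Sf, (B (sh u e) - B e) ^ 2 ≤ 2 * ∑ e ∈ Sf, (S0 (sh u e) - S0 e) ^ 2 +
        64 * (l : ℝ) ^ 2 / (Y ^ 2 * (M : ℝ) ^ 2) * D := by
      have k1 := far_sum (v := v) hL hM u1 u2 (S := Sf) (fun e he => (Finset.mem_filter.1 he).2)
      have k2 : ∀ e, (B (sh u e) - B e) ^ 2 ≤ 2 * (S0 (sh u e) - S0 e) ^ 2 +
          2 / Y ^ 2 * (dr v (sh u e) - dr v e) ^ 2 := by
        intro e
        simp only [hB]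
        have k3 : S0 (sh u e) - dr v (sh u e) / Y - (S0 e - dr v e / Y) =
            (S0 (sh u e) - S0 e) - (dr v (sh u e) - dr v e) / Y := by ring
        have k4 : 2 / Y ^ 2 * (dr v (sh u e) - dr v e) ^ 2 =
            2 * ((dr v (sh u e) - dr v e) / Y) ^ 2 := by
          field_simp
        rw [k3, k4]
        nlinarith [sq_nonneg ((S0 (sh u e) - S0 e) + (dr v (sh u e) - dr v e) / Y)]
      calc ∑ e ∈ Sf, (B (sh u e) - B e) ^ 2 ≤ ∑ e ∈ Sf, (2 * (S0 (sh u e) - S0 e) ^ 2 +
            2 / Y ^ 2 * (dr v (sh u e) - dr v e) ^ 2) := Finset.sum_le_sum fun e _ => k2 e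
        _ = 2 * ∑ e ∈ Sf, (S0 (sh u e) - S0 e) ^ 2 +
            2 / Y ^ 2 * ∑ e ∈ Sf, (dr v (sh u e) - dr v e) ^ 2 := by
            rw [Finset.sum_add_distrib, ← Finset.mul_sum, ← Finset.mul_sum]
        _ ≤ 2 * ∑ e ∈ Sf, (S0 (sh u e) - S0 e) ^ 2 +
            2 / Y ^ 2 * (32 * (l : ℝ) ^ 2 / (M : ℝ) ^ 2 * D) :=
            add_le_add le_rfl (mul_le_mul_of_nonneg_left k1 (by positivity))
        _ = _ := by
            have hM' : (0 : ℝ) < M := by exact_mod_cast hM
            field_simp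
            ring
    have f2 : ∑ e ∈ Sn, (B (sh u e) - B e) ^ 2 ≤ 16 * (E1 + ω * P / Y) := by
      have k0 : ∀ e ∈ Sn, dst R (lf e) ≤ l + 1 + M ∧ dst R (rt e) ≤ l + 1 + M := by
        intro e he
        have k1 := (Finset.mem_filter.1 he).2
        have k2 := lr_close e
        have k3 := dst_lip (R := R) (f := rt e) (f' := lf e) (k := 1) (by exact_mod_cast k2.1)
          (by exact_mod_cast k2.2)
        have k4 := dst_lip (R := R) (f := lf e) (f' := rt e) (k := 1)
          (by rw [abs_sub_comm]; exact_mod_cast k2.1)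
          (by rw [abs_sub_comm]; exact_mod_cast k2.2)
        omega
      have k1 : ∑ e ∈ Sn, B e ^ 2 ≤ 4 * (E1 + ω * P / Y) := by
        refine hsumB Sn fun e he => ?_
        have := k0 e he
        exact ⟨dst_le_iff.1 (by omega), dst_le_iff.1 (by omega)⟩
      have k2 : ∑ e ∈ Sn, B (sh u e) ^ 2 ≤ 4 * (E1 + ω * P / Y) := by
        rw [← Finset.sum_image (f := fun e => B e ^ 2) (s := Sn) (g := sh u)
          (fun x _ y _ h => sh_inj u h)]
        refine hsumB _ fun e he => ?_
        obtain ⟨e', he', rfl⟩ := Finset.mem_image.1 he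
        have k3 := k0 e' he'
        rw [lf_sh, rt_sh]
        have k4 := dst_lip (R := R) (f := lf e') (f' := lf e' + u) (k := l)
          (by simpa using u1) (by simpa using u2)
        have k5 := dst_lip (R := R) (f := rt e') (f' := rt e' + u) (k := l)
          (by simpa using u1) (by simpa using u2)
        exact ⟨dst_le_iff.1 (by omega), dst_le_iff.1 (by omega)⟩
      calc ∑ e ∈ Sn, (B (sh u e) - B e) ^ 2 ≤ ∑ e ∈ Sn, (2 * B (sh u e) ^ 2 + 2 * B e ^ 2) :=
            Finset.sum_le_sum fun e _ => by nlinarith [sq_nonneg (B (sh u e) + B e)]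
        _ = 2 * ∑ e ∈ Sn, B (sh u e) ^ 2 + 2 * ∑ e ∈ Sn, B e ^ 2 := by
            rw [Finset.sum_add_distrib, ← Finset.mul_sum, ← Finset.mul_sum]
        _ ≤ 16 * (E1 + ω * P / Y) := by linarith
    have f3 : ∑ e ∈ Sf, (S0 (sh u e) - S0 e) ^ 2 ≤ ∑ e ∈ S, (S0 (sh u e) - S0 e) ^ 2 :=
      Finset.sum_le_sum_of_subset_of_nonneg (Finset.filter_subset _ _) fun _ _ _ => sq_nonneg _
    linarith
  refine (Finset.sum_le_sum one).trans (le_of_eq ?_)
  rw [Finset.sum_add_distrib, ← Finset.mul_sum, Finset.sum_const, nsmul_eq_mul, card_box]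

end Vale.Agent.P159.T1.S.H126
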