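import Vale.Agent.P159.T1.S.H126.Count
import Vale.Agent.P159.T1.S.H126.En

/-!
Row StmtOsc of the sharp stage of P159.
-/

namespace Vale.Agent.P159.T1.S.H126

open Vale.Agent.P159.T1.D Vale.Agent.P159.T1.S
open Vale.Agent.P159.T1.H775 (InBox stp grad_le)
open Vale.Agent.P159.T1.H565 (Lp dv dv_dr dirichlet mem_bd max_pr min_pr)

lemma Lp_eq (t : Z2 → ℝ) (f : Z2) : Lp t f = H775.lap t f := rfl

/-! ### the tent -/

variable {K c1 : ℝ} {n0 r : ℕ} {t : Z2 → ℝ}

/-- where the tent does not vanish -/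
lemma tent_supp (hc : c1 ≤ 1 / 8) (hr : 1 ≤ r) (h : Tent K c1 n0 r t) {f : Z2} (hf : t f ≠ 0) :
    n0 < 2 * ns r f ∧ ns r f + 1 ≤ r := by
  constructor
  · by_contra hcon
    exact hf (h.near f (not_lt.1 hcon))
  · by_contra hcon
    push Not at hcon
    apply hf
    refine h.far f ?_
    have h1 : (r : ℝ) ≤ ns r f := by exact_mod_cast Nat.lt_succ_iff.1 hcon
    have h2 : (1 : ℝ) ≤ r := by exact_mod_cast hr
    nlinarith

lemma dr_tent (hc : c1 ≤ 1 / 8) (hr : 1 ≤ r) (h : Tent K c1 n0 r t) {e : Bnd} (he : dr t e ≠ 0) :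
    n0 < 2 * (ns r (bf e) + 1) ∧ ns r (bf e) ≤ r := by
  have h1 : t (stp (!e.2) (bf e)) ≠ 0 ∨ t (bf e) ≠ 0 := by
    by_contra hcon
    push Not at hcon
    apply he
    rw [← abs_eq_zero, abs_dr, hcon.1, hcon.2, sub_zero, abs_zero]
  have h2 := ns_stp r (!e.2) (bf e)
  rcases h1 with h1 | h1
  · have := tent_supp hc hr h h1
    omega
  · have := tent_supp hc hr h h1
    omega

lemma dr_tent_le (h : Tent K c1 n0 r t) (e : Bnd) :
    |dr t e| ≤ K / ((ns r (bf e) : ℝ) + 1) := by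
  rw [abs_dr, le_div_iff₀ (by positivity)]
  have := h.grad (bf e) (!e.2)
  linarith

/-- the energy of the tent -/
lemma tent_energy (hK : 0 < K) (hc : c1 ≤ 1 / 8) (hr : 1 ≤ r) (h : Tent K c1 n0 r t)
    (S : Finset Bnd) : ∑ e ∈ S, (dr t e) ^ 2 ≤ 32 * K ^ 2 * (Real.log r + 2) := by
  classical
  have h1 : ∑ e ∈ S, (dr t e) ^ 2 ≤ ∑ e ∈ S.filter (fun e => ns r (bf e) ≤ r),
      K ^ 2 * (1 / ((ns r (bf e) : ℝ) + 1) ^ 2) := by
    rw [← Finset.sum_filter_add_sum_filter_not S (fun e => ns r (bf e) ≤ r)]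
    have h2 : ∑ e ∈ S with ¬ns r (bf e) ≤ r, (dr t e) ^ 2 = 0 := by
      refine Finset.sum_eq_zero fun e he => ?_
      by_contra hcon
      have := dr_tent hc hr h (e := e) (fun h0 => hcon (by rw [h0]; ring))
      exact (Finset.mem_filter.1 he).2 this.2
    rw [h2, add_zero]
    refine Finset.sum_le_sum fun e _ => ?_
    have h3 := dr_tent_le h e
    rw [← sq_abs]
    have h4 : K ^ 2 * (1 / ((ns r (bf e) : ℝ) + 1) ^ 2) = (K / ((ns r (bf e) : ℝ) + 1)) ^ 2 := by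
      rw [div_pow]; ring
    rw [h4]
    exact pow_le_pow_left₀ (abs_nonneg _) h3 2
  refine h1.trans ?_
  rw [← Finset.mul_sum]
  have h2 := sum_bf (S.filter fun e => ns r (bf e) ≤ r)
    (G := fun f => 1 / ((ns r f : ℝ) + 1) ^ 2) (fun f => by positivity)
  have h3 := sum_ns (F := (S.filter fun e => ns r (bf e) ≤ r).image bf) (r := r) (N := r)
    (by
      intro f hf
      obtain ⟨e, he, rfl⟩ := Finset.mem_image.1 hf
      exact (Finset.mem_filter.1 he).2)
    (W := fun k => 1 / ((k : ℝ) + 1) ^ 2) (fun k => by positivity)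
  have h4 : ∑ k ∈ Finset.range (r + 1), 8 * ((k : ℝ) + 1) * (1 / ((k : ℝ) + 1) ^ 2) =
      8 * ∑ k ∈ Finset.range (r + 1), 1 / ((k : ℝ) + 1) := by
    rw [Finset.mul_sum]
    refine Finset.sum_congr rfl fun k _ => ?_
    field_simp
  rw [h4] at h3
  have h5 := sum_harm_le hr
  have h6 : ∑ e ∈ S with ns r (bf e) ≤ r, 1 / ((ns r (bf e) : ℝ) + 1) ^ 2 ≤
      32 * (Real.log r + 2) := by linarith
  calc K ^ 2 * ∑ e ∈ S with ns r (bf e) ≤ r, 1 / ((ns r (bf e) : ℝ) + 1) ^ 2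
      ≤ K ^ 2 * (32 * (Real.log r + 2)) := mul_le_mul_of_nonneg_left h6 (by positivity)
    _ = 32 * K ^ 2 * (Real.log r + 2) := by ring

/-- the total charge of the tent -/
lemma tent_charge (hK : 0 < K) (hc : c1 ≤ 1 / 8) (hr : 1 ≤ r) (h : Tent K c1 n0 r t)
    {R : Finset Z2} (hR : ∀ f ∈ R, f ∉ slit r) :
    ∑ f ∈ R, |dv (dr t) f| ≤ 16 * K * (Real.log r + 2) := by
  classical
  have hz : ∀ f, ¬ns r f ≤ r → Lp t f = 0 := by
    intro f hf
    have key : ∀ g, |g.1 - f.1| ≤ 1 → |g.2 - f.2| ≤ 1 → t g = 0 := by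
      intro g h1 h2
      by_contra h3
      have h4 := tent_supp hc hr h h3
      have h5 := ns_step (r := r) (f := f) (g := g) (l := 1) (by exact_mod_cast h1)
        (by exact_mod_cast h2)
      omega
    unfold H565.Lp
    rw [key (f.1 + 1, f.2) (by simp) (by simp), key (f.1 - 1, f.2) (by simp) (by simp),
      key (f.1, f.2 + 1) (by simp) (by simp), key (f.1, f.2 - 1) (by simp) (by simp),
      key f (by simp) (by simp)]
    ring
  have h1 : ∑ f ∈ R, |dv (dr t) f| ≤ ∑ f ∈ R.filter (fun f => ns r f ≤ r),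
      K * (1 / ((ns r f : ℝ) + 1) ^ 2) := by
    rw [← Finset.sum_filter_add_sum_filter_not R (fun f => ns r f ≤ r)]
    have h2 : ∑ f ∈ R with ¬ns r f ≤ r, |dv (dr t) f| = 0 := by
      refine Finset.sum_eq_zero fun f hf => ?_
      rw [dv_dr, hz f (Finset.mem_filter.1 hf).2]
      simp
    rw [h2, add_zero]
    refine Finset.sum_le_sum fun f hf => ?_
    rw [dv_dr, abs_neg, Lp_eq]
    have h3 := h.lap f (hR f (Finset.mem_filter.1 hf).1)
    rw [mul_one_div, le_div_iff₀ (by positivity)]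
    have e : ((ns r f : ℝ) + 1) ^ 2 = (1 + ns r f : ℝ) ^ 2 := by ring
    rw [e]
    linarith
  refine h1.trans ?_
  rw [← Finset.mul_sum]
  have h3 := sum_ns (F := R.filter fun f => ns r f ≤ r) (r := r) (N := r)
    (fun f hf => (Finset.mem_filter.1 hf).2)
    (W := fun k => 1 / ((k : ℝ) + 1) ^ 2) (fun k => by positivity)
  have h4 : ∑ k ∈ Finset.range (r + 1), 8 * ((k : ℝ) + 1) * (1 / ((k : ℝ) + 1) ^ 2) =
      8 * ∑ k ∈ Finset.range (r + 1), 1 / ((k : ℝ) + 1) := by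
    rw [Finset.mul_sum]
    refine Finset.sum_congr rfl fun k _ => ?_
    field_simp
  rw [h4] at h3
  have h5 := sum_harm_le hr
  have h6 : ∑ f ∈ R with ns r f ≤ r, 1 / ((ns r f : ℝ) + 1) ^ 2 ≤ 16 * (Real.log r + 2) := by
    linarith
  calc K * ∑ f ∈ R with ns r f ≤ r, 1 / ((ns r f : ℝ) + 1) ^ 2
      ≤ K * (16 * (Real.log r + 2)) := mul_le_mul_of_nonneg_left h6 hK.le
    _ = 16 * K * (Real.log r + 2) := by ring

/-! ### oscillation of the tent -/

lemma line_le {g : ℤ → ℝ} {l : ℕ} {B : ℝ} (hg : ∀ i : ℤ, |i| ≤ l → |g (i + 1) - g i| ≤ B) {a : ℤ}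
    (ha : |a| ≤ l) : |g a - g 0| ≤ 2 * l * B := by
  rw [abs_le] at ha
  have h := H775.var_le' g (a := -(l : ℤ)) (b := l) ha.1 ha.2 (by omega) (by omega) (x := a) (y := 0)
  have h2 : ∑ i ∈ Finset.Ico (-(l : ℤ)) l, |g (i + 1) - g i| ≤
      ∑ i ∈ Finset.Ico (-(l : ℤ)) (l : ℤ), B := by
    refine Finset.sum_le_sum fun i hi => hg i ?_
    rw [Finset.mem_Ico] at hi
    rw [abs_le]
    omega
  rw [Finset.sum_const, Int.card_Ico, nsmul_eq_mul] at h2
  have h3 : (((l : ℤ) - -(l : ℤ)).toNat : ℝ) = 2 * l := by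
    have : ((l : ℤ) - -(l : ℤ)).toNat = 2 * l := by omega
    rw [this]; push_cast; ring
  rw [h3] at h2
  exact h.trans h2

lemma path_le {G : Z2 → ℝ} {f : Z2} {l : ℕ} {B : ℝ}
    (hG : ∀ x : Z2, |x.1 - f.1| ≤ l → |x.2 - f.2| ≤ l → ∀ d, |G (stp d x) - G x| ≤ B) {u : Z2}
    (h1 : |u.1| ≤ l) (h2 : |u.2| ≤ l) : |G (f + u) - G f| ≤ 4 * l * B := by
  have a := line_le (g := fun i => G (f.1 + i, f.2)) (l := l) (B := B) (by
    intro i hi
    have := hG (f.1 + i, f.2) (by simpa using hi) (by simp) false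
    simpa [stp, add_assoc] using this) h1
  have b := line_le (g := fun i => G (f.1 + u.1, f.2 + i)) (l := l) (B := B) (by
    intro i hi
    have := hG (f.1 + u.1, f.2 + i) (by simpa using h1) (by simpa using hi) true
    simpa [stp, add_assoc] using this) h2
  simp only [add_zero] at a b
  have e : f + u = (f.1 + u.1, f.2 + u.2) := rfl
  rw [e]
  calc |G (f.1 + u.1, f.2 + u.2) - G f| = |(G (f.1 + u.1, f.2 + u.2) - G (f.1 + u.1, f.2)) +
        (G (f.1 + u.1, f.2) - G (f.1, f.2))| := by congr 1; ring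
    _ ≤ _ := abs_add_le _ _
    _ ≤ 2 * l * B + 2 * l * B := add_le_add b a
    _ = 4 * l * B := by ring

lemma dr_sh_bf (v : Z2 → ℝ) (u : Z2) (e : Bnd) : |dr v (sh u e) - dr v e| =
    |(v (stp (!e.2) (bf e + u)) - v (bf e + u)) - (v (stp (!e.2) (bf e)) - v (bf e))| := by
  obtain ⟨⟨i, j⟩, c⟩ := e
  obtain ⟨a, b⟩ := u
  cases c
  · simp only [dr, bf, lf, rt, stp, sh, Bool.not_false, if_true, Bool.false_eq_true, if_false,
      Prod.mk_add_mk, sub_add_cancel]
    have e1 : j - 1 + b = j + b - 1 := by ring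
    rw [e1, sub_add_cancel]
  · simp only [dr, bf, lf, rt, stp, sh, Bool.not_true, if_true, Bool.false_eq_true, if_false,
      Prod.mk_add_mk, sub_add_cancel]
    have e1 : i - 1 + a = i + a - 1 := by ring
    rw [e1, sub_add_cancel, abs_sub_comm]
    congr 1
    ring

/-- the difference of the gradient of the tent at two bonds at distance `≤ l` -/
lemma tent_diff (hK : 0 < K) (hc : c1 ≤ 1 / 8) (hr : 1 ≤ r) (h : Tent K c1 n0 r t) {l : ℕ}
    (hn : 16 * (l + 2) ≤ n0) {e : Bnd} {u : Z2} (h1 : |u.1| ≤ l) (h2 : |u.2| ≤ l) :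
    (dr t (sh u e) - dr t e) ^ 2 ≤
      if ns r (bf e) ≤ r + l ∧ 7 * (l + 2) ≤ ns r (bf e) then
        (256 * (l : ℝ) ^ 2 * K ^ 2 * (1 / ((ns r (bf e) : ℝ) + 1) ^ 4) +
          if |(bf e).2 + 1| ≤ ((l + 2 : ℕ) : ℤ) then
            9 * K ^ 2 * (1 / ((ns r (bf e) : ℝ) + 1) ^ 2) else 0) else 0 := by
  classical
  set f := bf e with hf
  set d := !e.2 with hd
  by_cases h0 : dr t (sh u e) - dr t e = 0
  · rw [h0, zero_pow two_ne_zero]
    split_ifs <;> positivity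
  -- the bond is in the range
  have hbf : bf (sh u e) = f + u := by
    rw [hf]
    obtain ⟨⟨i, j⟩, c⟩ := e
    obtain ⟨a, b⟩ := u
    cases c
    · simp only [bf, rt, sh, Bool.false_eq_true, if_false, Prod.mk_add_mk, Prod.mk.injEq, true_and]
      ring
    · simp only [bf, lf, sh, if_true, Prod.mk_add_mk, Prod.mk.injEq, and_true]
      ring
  have hclose : |(f + u).1 - f.1| ≤ l ∧ |(f + u).2 - f.2| ≤ l := by
    constructor
    · simpa using h1
    · simpa using h2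
  have hnsu := ns_step (r := r) (f := f) (g := f + u) (l := l) hclose.1 hclose.2
  have hnsu' := ns_step (r := r) (f := f + u) (g := f) (l := l)
    (by rw [abs_sub_comm]; exact hclose.1) (by rw [abs_sub_comm]; exact hclose.2)
  have hrange : ns r f ≤ r + l ∧ 7 * (l + 2) ≤ ns r f := by
    by_cases h3 : dr t e = 0
    · have h4 : dr t (sh u e) ≠ 0 := fun h4 => h0 (by rw [h3, h4, sub_zero])
      have h5 := dr_tent hc hr h h4
      rw [hbf] at h5
      omega
    · have h5 := dr_tent hc hr h h3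
      rw [← hf] at h5
      omega
  rw [if_pos hrange]
  have hpos : (0 : ℝ) < (ns r f : ℝ) + 1 := by positivity
  by_cases hnear : |f.2 + 1| ≤ ((l + 2 : ℕ) : ℤ)
  · rw [if_pos hnear]
    have a1 := dr_tent_le h e
    have a2 := dr_tent_le h (sh u e)
    rw [hbf] at a2
    rw [← hf] at a1
    have a3 : K / ((ns r (f + u) : ℝ) + 1) ≤ 2 * (K / ((ns r f : ℝ) + 1)) := by
      rw [← mul_div_assoc, div_le_div_iff₀ (by positivity) hpos]
      have : (ns r f : ℝ) + 1 ≤ 2 * ((ns r (f + u) : ℝ) + 1) := by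
        have : ns r f + 1 ≤ 2 * (ns r (f + u) + 1) := by omega
        exact_mod_cast this
      nlinarith
    have a4 : |dr t (sh u e) - dr t e| ≤ 3 * (K / ((ns r f : ℝ) + 1)) :=
      (abs_sub _ _).trans (by linarith)
    have a5 : (dr t (sh u e) - dr t e) ^ 2 ≤ (3 * (K / ((ns r f : ℝ) + 1))) ^ 2 := by
      rw [← sq_abs]
      exact pow_le_pow_left₀ (abs_nonneg _) a4 2
    have a6 : (3 * (K / ((ns r f : ℝ) + 1))) ^ 2 =
        9 * K ^ 2 * (1 / ((ns r f : ℝ) + 1) ^ 2) := by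
      rw [mul_pow, div_pow]; ring
    rw [a6] at a5
    have a7 : 0 ≤ 256 * (l : ℝ) ^ 2 * K ^ 2 * (1 / ((ns r f : ℝ) + 1) ^ 4) := by positivity
    linarith
  · rw [if_neg hnear, add_zero]
    have b1 : ∀ x : Z2, |x.1 - f.1| ≤ l → |x.2 - f.2| ≤ l → ∀ d',
        |(fun g => t (stp d g) - t g) (stp d' x) - (fun g => t (stp d g) - t g) x| ≤
          4 * K / ((ns r f : ℝ) + 1) ^ 2 := by
      intro x hx1 hx2 d'
      have c0 : ∀ g : Z2, |g.2 - x.2| ≤ 2 → g ∉ slit r := by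
        intro g hg hs
        apply hnear
        have := hs.1
        rw [abs_le] at hg hx2 ⊢
        push_cast
        omega
      have c2 := h.second x d d' (c0 x (by simp)) (c0 _ (by
          have := (stp_close d x).2
          rw [abs_le] at this ⊢; omega))
        (c0 _ (by
          have := (stp_close d' x).2
          rw [abs_le] at this ⊢; omega))
        (c0 _ (by
          have a := (stp_close d' x).2
          have b := (stp_close d (stp d' x)).2
          rw [abs_le] at a b ⊢; omega))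
      simp only
      have c3 : (ns r f : ℝ) + 1 ≤ 2 * (1 + ns r x) := by
        have := ns_step (r := r) (f := f) (g := x) (l := l) hx1 hx2
        have : ns r f + 1 ≤ 2 * (1 + ns r x) := by omega
        exact_mod_cast this
      rw [le_div_iff₀ (by positivity)]
      have c4 : ((ns r f : ℝ) + 1) ^ 2 ≤ 4 * (1 + ns r x : ℝ) ^ 2 := by nlinarith
      have c5 := abs_nonneg (t (stp d (stp d' x)) - t (stp d' x) - (t (stp d x) - t x))
      nlinarith
    have b2 := path_le (G := fun g => t (stp d g) - t g) (f := f) (l := l) b1 h1 h2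
    have b3 : |dr t (sh u e) - dr t e| ≤ 4 * l * (4 * K / ((ns r f : ℝ) + 1) ^ 2) := by
      rw [dr_sh_bf]
      exact b2
    have b4 : (dr t (sh u e) - dr t e) ^ 2 ≤
        (4 * l * (4 * K / ((ns r f : ℝ) + 1) ^ 2)) ^ 2 := by
      rw [← sq_abs]
      exact pow_le_pow_left₀ (abs_nonneg _) b3 2
    have b5 : (4 * (l : ℝ) * (4 * K / ((ns r f : ℝ) + 1) ^ 2)) ^ 2 =
        256 * (l : ℝ) ^ 2 * K ^ 2 * (1 / ((ns r f : ℝ) + 1) ^ 4) := by
      rw [mul_pow, div_pow]
      ring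
    linarith

/-- bound for the oscillation of the tent -/
noncomputable def CO (K : ℝ) (l : ℕ) : ℝ :=
  (2 * l + 1) ^ 2 * (2 * (8192 * (l : ℝ) ^ 2 * K ^ 2 + 72 * K ^ 2 * (2 * (l + 2) + 1)))

lemma tent_osc (hK : 0 < K) (hc : c1 ≤ 1 / 8) (hr : 1 ≤ r) (h : Tent K c1 n0 r t) {l : ℕ}
    (hn : 16 * (l + 2) ≤ n0) (S : Finset Bnd) : osc l S (dr t) ≤ CO K l := by
  classical
  rw [osc_split]
  set G : Z2 → ℝ := fun f => if ns r f ≤ r + l ∧ 7 * (l + 2) ≤ ns r f then
        (256 * (l : ℝ) ^ 2 * K ^ 2 * (1 / ((ns r f : ℝ) + 1) ^ 4) +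
          if |f.2 + 1| ≤ ((l + 2 : ℕ) : ℤ) then
            9 * K ^ 2 * (1 / ((ns r f : ℝ) + 1) ^ 2) else 0) else 0 with hG
  have hG0 : ∀ f, 0 ≤ G f := by
    intro f
    simp only [hG]
    split_ifs <;> positivity
  have one : ∀ u ∈ Finset.Icc (-(l : ℤ), -(l : ℤ)) ((l : ℤ), (l : ℤ)),
      ∑ e ∈ S, (dr t (sh u e) - dr t e) ^ 2 ≤ 2 * ∑ f ∈ S.image bf, G f := by
    intro u hu
    rw [Finset.mem_Icc, Prod.le_def, Prod.le_def] at hu
    simp only at hu
    have u1 : |u.1| ≤ l := abs_le.2 ⟨hu.1.1, hu.2.1⟩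
    have u2 : |u.2| ≤ l := abs_le.2 ⟨hu.1.2, hu.2.2⟩
    refine (Finset.sum_le_sum fun e _ => tent_diff hK hc hr h hn (e := e) u1 u2).trans ?_
    exact sum_bf S hG0
  refine (Finset.sum_le_sum one).trans ?_
  rw [Finset.sum_const, nsmul_eq_mul, card_box]
  unfold CO
  refine mul_le_mul_of_nonneg_left ?_ (by positivity)
  refine mul_le_mul_of_nonneg_left ?_ (by norm_num)
  -- the sum of `G`
  set F := (S.image bf).filter (fun f => ns r f ≤ r + l ∧ 7 * (l + 2) ≤ ns r f) with hF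
  have s1 : ∑ f ∈ S.image bf, G f = 256 * (l : ℝ) ^ 2 * K ^ 2 *
      ∑ f ∈ F, 1 / ((ns r f : ℝ) + 1) ^ 4 +
      9 * K ^ 2 * ∑ f ∈ F.filter (fun f => |f.2 + 1| ≤ ((l + 2 : ℕ) : ℤ)),
        1 / ((ns r f : ℝ) + 1) ^ 2 := by
    rw [Finset.mul_sum, Finset.mul_sum]
    simp only [hG]
    rw [← Finset.sum_filter, ← hF, Finset.sum_add_distrib, ← Finset.sum_filter]
  rw [s1]
  have s2 : ∑ f ∈ F, 1 / ((ns r f : ℝ) + 1) ^ 4 ≤ 32 := by
    have k1 := sum_ns (F := F) (r := r) (N := r + l)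
      (fun f hf => (Finset.mem_filter.1 hf).2.1) (W := fun k => 1 / ((k : ℝ) + 1) ^ 4)
      (fun k => by positivity)
    have k2 : ∑ k ∈ Finset.range (r + l + 1), 8 * ((k : ℝ) + 1) * (1 / ((k : ℝ) + 1) ^ 4) ≤
        8 * ∑ k ∈ Finset.range (r + l + 1), 1 / ((k : ℝ) + 1) ^ 2 := by
      rw [Finset.mul_sum]
      refine Finset.sum_le_sum fun k _ => ?_
      have h3 : 8 * ((k : ℝ) + 1) * (1 / ((k : ℝ) + 1) ^ 4) = 8 * (1 / ((k : ℝ) + 1) ^ 3) := by
        field_simp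
      rw [h3]
      refine mul_le_mul_of_nonneg_left ?_ (by norm_num)
      refine one_div_le_one_div_of_le (by positivity) ?_
      exact pow_le_pow_right₀ (by
        have : (0 : ℝ) ≤ k := Nat.cast_nonneg k
        linarith) (by norm_num)
    have k3 := sum_sq_le (r + l + 1)
    linarith
  have s3 : ∑ f ∈ F.filter (fun f => |f.2 + 1| ≤ ((l + 2 : ℕ) : ℤ)),
      1 / ((ns r f : ℝ) + 1) ^ 2 ≤ 8 * (2 * ((l : ℝ) + 2) + 1) := by
    have k1 := sum_row_ns (F := F.filter (fun f => |f.2 + 1| ≤ ((l + 2 : ℕ) : ℤ))) (r := r)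
      (N := r + l) (L := l + 2)
      (fun f hf => (Finset.mem_filter.1 (Finset.mem_filter.1 hf).1).2.1)
      (fun f hf => (Finset.mem_filter.1 hf).2)
      (fun f hf => by
        have := (Finset.mem_filter.1 (Finset.mem_filter.1 hf).1).2.2
        omega)
      (W := fun k => 1 / ((k : ℝ) + 1) ^ 2) (fun k => by positivity)
    have k3 := sum_sq_le (r + l + 1)
    have kc : ((l + 2 : ℕ) : ℝ) = (l : ℝ) + 2 := by push_cast; ring
    rw [kc] at k1
    have k4 : 0 ≤ 4 * (2 * ((l : ℝ) + 2) + 1) := by positivity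
    have k5 := mul_le_mul_of_nonneg_left k3 k4
    linarith
  have s4 := mul_le_mul_of_nonneg_left s2 (by positivity : 0 ≤ 256 * (l : ℝ) ^ 2 * K ^ 2)
  have s5 := mul_le_mul_of_nonneg_left s3 (by positivity : 0 ≤ 9 * K ^ 2)
  linarith

/-! ### the gradient bound -/

lemma grad_small (hCL : StmtCL) (hK : 0 < K) {ε : ℝ} (hε : 0 < ε) : ∃ n1 : ℕ, ∀ (c1 : ℝ),
    0 < c1 → c1 ≤ 1 / 8 → ∀ n0 ≥ n1, ∀ (r : ℕ) (R : Finset Z2) (t v : Z2 → ℝ), 1 ≤ r →
    Tent K c1 n0 r t → Unb R → Harm R t v → ∀ e, |dr (fun f => t f - v f) e| ≤ ε := by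
  obtain ⟨δ, hδ, hcl⟩ := hCL K (ε / 2) hK (by positivity)
  -- the radius
  obtain ⟨n1, hn1⟩ := exists_nat_ge (2 / δ * (1 + 1 + 4 * K / ε) + 4 * K / ε + 2 / δ + 4)
  refine ⟨n1, fun c1 hc1 hc n0 hn0 r R t v hr hT hU hH e => ?_⟩
  have hn : 2 / δ * (1 + 1 + 4 * K / ε) + 4 * K / ε + 2 / δ + 4 ≤ n0 :=
    hn1.trans (by exact_mod_cast hn0)
  have p1 : 0 < 2 / δ := by positivity
  have p2 : 0 < 4 * K / ε := by positivity
  set u : Z2 → ℝ := fun f => t f - v f with hu
  set f := bf e with hf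
  set d := !e.2 with hd
  rw [abs_dr]
  set X : ℝ := max (n0 : ℝ) (ns r f) with hX
  have hXn : (n0 : ℝ) ≤ X := le_max_left _ _
  by_cases hnear : ∃ g, g ∉ R ∧ |((g.1 - f.1 : ℤ) : ℝ)| ≤ δ / 2 * X ∧
      |((g.2 - f.2 : ℤ) : ℝ)| ≤ δ / 2 * X
  · obtain ⟨g, hgR, hg1, hg2⟩ := hnear
    have hX0 : 0 < X := by
      have : (0 : ℝ) < n0 := by nlinarith
      linarith
    have a1 : |t f - v f| ≤ ε / 2 := by
      refine hcl c1 n0 r R t v hc1 hc hT hU hH f g hgR (hg1.trans ?_) (hg2.trans ?_) <;>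
        nlinarith
    have hX' : X ≤ max (n0 : ℝ) (ns r (stp d f)) + 1 := by
      have k1 := (ns_stp r d f).1
      have k2 : (ns r f : ℝ) ≤ ns r (stp d f) + 1 := by exact_mod_cast k1
      rw [hX]
      refine max_le ?_ ?_
      · have := le_max_left (n0 : ℝ) (ns r (stp d f))
        linarith
      · have := le_max_right (n0 : ℝ) (ns r (stp d f))
        linarith
    have hbig : δ / 2 * X + 1 ≤ δ * max (n0 : ℝ) (ns r (stp d f)) := by
      have k1 : (n0 : ℝ) ≤ max (n0 : ℝ) (ns r (stp d f)) := le_max_left _ _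
      have k2 : δ / 2 * X ≤ δ / 2 * (max (n0 : ℝ) (ns r (stp d f)) + 1) :=
        mul_le_mul_of_nonneg_left hX' (by positivity)
      have k3 : 2 / δ + 1 ≤ (n0 : ℝ) := by nlinarith
      have k4 : δ / 2 * (2 / δ + 1) ≤ δ / 2 * max (n0 : ℝ) (ns r (stp d f)) :=
        mul_le_mul_of_nonneg_left (k3.trans k1) (by positivity)
      have k5 : δ / 2 * (2 / δ + 1) = 1 + δ / 2 := by field_simp
      rw [k5] at k4
      linarith
    have hs := stp_close d f
    have a2 : |t (stp d f) - v (stp d f)| ≤ ε / 2 := by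
      refine hcl c1 n0 r R t v hc1 hc hT hU hH (stp d f) g hgR ?_ ?_
      · have k1 : ((g.1 - (stp d f).1 : ℤ) : ℝ) = ((g.1 - f.1 : ℤ) : ℝ) -
            (((stp d f).1 - f.1 : ℤ) : ℝ) := by push_cast; ring
        rw [k1]
        have k2 : |(((stp d f).1 - f.1 : ℤ) : ℝ)| ≤ 1 := by exact_mod_cast hs.1
        exact (abs_sub _ _).trans (by linarith)
      · have k1 : ((g.2 - (stp d f).2 : ℤ) : ℝ) = ((g.2 - f.2 : ℤ) : ℝ) -
            (((stp d f).2 - f.2 : ℤ) : ℝ) := by push_cast; ring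
        rw [k1]
        have k2 : |(((stp d f).2 - f.2 : ℤ) : ℝ)| ≤ 1 := by exact_mod_cast hs.2
        exact (abs_sub _ _).trans (by linarith)
    simp only [hu]
    exact (abs_sub _ _).trans (by linarith)
  · push Not at hnear
    -- `v` is harmonic in a large box
    set m : ℕ := ⌊δ / 2 * X⌋₊ with hm
    have hX0 : 0 ≤ δ / 2 * X := by
      have : (0 : ℝ) ≤ n0 := Nat.cast_nonneg _
      have : 0 ≤ X := by linarith
      positivity
    have hbox : ∀ p, InBox f m p → p ∈ R := by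
      intro p hp
      by_contra hpR
      have k1 : |((p.1 - f.1 : ℤ) : ℝ)| ≤ δ / 2 * X := by
        have : |((p.1 - f.1 : ℤ) : ℝ)| ≤ m := by exact_mod_cast hp.1
        exact this.trans (Nat.floor_le hX0)
      have k2 : |((p.2 - f.2 : ℤ) : ℝ)| ≤ δ / 2 * X := by
        have : |((p.2 - f.2 : ℤ) : ℝ)| ≤ m := by exact_mod_cast hp.2
        exact this.trans (Nat.floor_le hX0)
      exact absurd k2 (not_le.2 (hnear p hpR k1))
    have hm1 : 1 + 4 * K / ε ≤ (m : ℝ) := by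
      have k1 : δ / 2 * (2 / δ * (1 + 1 + 4 * K / ε)) ≤ δ / 2 * X := by
        refine mul_le_mul_of_nonneg_left ?_ (by positivity)
        linarith
      have k2 : δ / 2 * (2 / δ * (1 + 1 + 4 * K / ε)) = 1 + 1 + 4 * K / ε := by field_simp
      have k3 := Nat.lt_floor_add_one (δ / 2 * X)
      rw [← hm] at k3
      linarith
    have hmpos : (0 : ℝ) < m := by linarith
    have hv0 : ∀ p, 0 ≤ v p := min_pr (R := R) (fun P hP => (hH.2 P hP).le)
      (fun P hP => by rw [hH.1 P hP]; exact hT.nonneg P)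
    have hvK : ∀ p, v p ≤ K := max_pr (R := R) (fun P hP => (hH.2 P hP).ge)
      (fun P hP => by rw [hH.1 P hP]; exact hT.le P)
    have b1 : |v (stp d f) - v f| ≤ K / m :=
      grad_le (v := v) (f := f) (m := m) (D := K) (by
        have : (1 : ℝ) ≤ m := by linarith
        exact_mod_cast this) (fun p hp => hH.2 p (hbox p hp))
        (fun p q _ _ => by linarith [hv0 q, hvK p]) d
    have b2 : K / m ≤ ε / 4 := by
      rw [div_le_iff₀ hmpos]
      have k1 : ε / 4 * (4 * K / ε) ≤ ε / 4 * m :=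
        mul_le_mul_of_nonneg_left (by linarith) (by positivity)
      have k2 : ε / 4 * (4 * K / ε) = K := by field_simp
      linarith
    have b3 : |t (stp d f) - t f| ≤ ε / 2 := by
      by_cases h0 : t (stp d f) - t f = 0
      · rw [h0, abs_zero]; positivity
      · have k0 : dr t e ≠ 0 := by
          intro k
          apply h0
          rw [← abs_eq_zero, ← abs_dr, k, abs_zero]
        have k1 := dr_tent hc hr hT k0
        have k2 := hT.grad f d
        rw [← hf] at k1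
        have k3 : (n0 : ℝ) < 2 * (ns r f + 1) := by exact_mod_cast k1.1
        have k4 : 2 * K / ε ≤ 1 + ns r f := by
          have : 4 * K / ε = 2 * (2 * K / ε) := by ring
          nlinarith
        have k5 : 2 * K / ε * |t (stp d f) - t f| ≤ K :=
          (mul_le_mul_of_nonneg_right k4 (abs_nonneg _)).trans k2
        have k6 : 2 * K / ε * |t (stp d f) - t f| = 2 * K * |t (stp d f) - t f| / ε := by ring
        rw [k6, div_le_iff₀ hε] at k5
        nlinarith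
    simp only [hu]
    have b4 : t (stp d f) - v (stp d f) - (t f - v f) =
        (t (stp d f) - t f) - (v (stp d f) - v f) := by ring
    rw [b4]
    exact (abs_sub _ _).trans (by linarith)

/-! ### the row -/

lemma dr_sub (t v : Z2 → ℝ) (e : Bnd) : dr (fun f => t f - v f) e = dr t e - dr v e := by
  unfold dr; ring

/-- **row StmtOsc** -/
theorem stmtOsc (hCL : StmtCL) : StmtOsc := by
  intro K ε c1 l hK hε hc1 hc
  obtain ⟨n1, hn1⟩ := grad_small hCL hK hε
  -- `ω`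
  set ω : ℝ := ε / (512 * K * (2 * l + 1) ^ 2) with hω
  have hω0 : 0 < ω := by positivity
  obtain ⟨δ, hδ, hcl⟩ := hCL K ω hK hω0
  -- `M`
  obtain ⟨M0, hM0⟩ := exists_nat_ge ((2 * l + 1) ^ 2 * (64 * (l : ℝ) ^ 2 * (32 * K ^ 2)) * 2 / ε)
  set M : ℕ := M0 + 1 with hM
  have hMpos : 0 < M := by omega
  have hM' : (0 : ℝ) < M := by exact_mod_cast hMpos
  have hMle : (2 * l + 1) ^ 2 * (64 * (l : ℝ) ^ 2 * (32 * K ^ 2)) / (M : ℝ) ^ 2 ≤ ε / 2 := by
    rw [div_le_iff₀ (by positivity)]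
    have k1 : (2 * l + 1) ^ 2 * (64 * (l : ℝ) ^ 2 * (32 * K ^ 2)) * 2 / ε ≤ (M : ℝ) := by
      rw [hM]; push_cast; linarith
    rw [div_le_iff₀ hε] at k1
    have k2 : (1 : ℝ) ≤ M := by exact_mod_cast hMpos
    have k3 : (M : ℝ) ≤ (M : ℝ) ^ 2 := by nlinarith
    have k4 : (M : ℝ) * ε ≤ (M : ℝ) ^ 2 * ε := mul_le_mul_of_nonneg_right k3 hε.le
    linarith
  obtain ⟨n2, hn2⟩ := exists_nat_ge (((2 * l + 1 + M : ℕ) : ℝ) / δ)
  refine ⟨max n1 (max n2 (16 * (l + 2))), fun n0 hn0 => ?_⟩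
  have e1 : n1 ≤ n0 := (le_max_left _ _).trans hn0
  have e2 : n2 ≤ n0 := ((le_max_left _ _).trans (le_max_right _ _)).trans hn0
  have e3 : 16 * (l + 2) ≤ n0 := ((le_max_right _ _).trans (le_max_right _ _)).trans hn0
  refine ⟨2 * CO K l + 2 * ε + 128 * K ^ 2, fun r R t v hr hT hU hH hR => ?_⟩
  have hr' : (1 : ℝ) ≤ r := by exact_mod_cast hr
  have hlog : 0 ≤ Real.log r := Real.log_nonneg hr'
  have hCO : 0 ≤ CO K l := by unfold CO; positivity
  have hv : ∀ f, f ∉ R → v f = t f := hH.1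
  have hL : ∀ f ∈ R, Lp v f = 0 := fun f hf => hH.2 f hf
  -- energies
  have hDir := dirichlet (R := R) (v := v) (w := t) hL hv
  have hEt := tent_energy hK hc hr hT (bd R)
  have hD : ∑ e ∈ bd R, (dr v e) ^ 2 ≤ 32 * K ^ 2 * (Real.log r + 2) := by
    have : 0 ≤ ∑ e ∈ bd R, (dr t e - dr v e) ^ 2 := Finset.sum_nonneg fun _ _ => sq_nonneg _
    linarith
  have hDu : ∑ e ∈ bd R, (dr t e - dr v e) ^ 2 ≤ 32 * K ^ 2 * (Real.log r + 2) := by
    have : 0 ≤ ∑ e ∈ bd R, (dr v e) ^ 2 := Finset.sum_nonneg fun _ _ => sq_nonneg _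
    linarith
  have hbd : ∀ e, e ∉ bd R → dr v e = dr t e := by
    intro e he
    rw [mem_bd] at he
    push Not at he
    unfold dr
    rw [hv _ he.1, hv _ he.2]
  refine ⟨hn1 c1 hc1 hc n0 e1 r R t v hr hT hU hH, fun S => ?_, fun S => ?_, fun S => ?_⟩
  · have hE : ∀ S' : Finset Bnd, ∑ e ∈ S', (dr t e - dr t e / 1) ^ 2 ≤ 0 := by
      intro S'
      refine le_of_eq (Finset.sum_eq_zero fun e _ => ?_)
      rw [div_one, sub_self]
      ring
    have hnear : ∀ f, near R (2 * l + 1 + M) f → |t f - v f| ≤ ω := by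
      rintro f ⟨g, hg, h1, h2⟩
      have k : ((2 * l + 1 + M : ℕ) : ℝ) ≤ δ * max (n0 : ℝ) (ns r f) := by
        have k1 : ((2 * l + 1 + M : ℕ) : ℝ) / δ ≤ n0 := hn2.trans (by exact_mod_cast e2)
        rw [div_le_iff₀ hδ] at k1
        have k2 : (n0 : ℝ) * δ ≤ max (n0 : ℝ) (ns r f) * δ :=
          mul_le_mul_of_nonneg_right (le_max_left _ _) hδ.le
        linarith
      refine hcl c1 n0 r R t v hc1 hc hT hU hH f g hg ?_ ?_
      · have : |((g.1 - f.1 : ℤ) : ℝ)| ≤ ((2 * l + 1 + M : ℕ) : ℝ) := by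
          rw [abs_sub_comm] at h1
          exact_mod_cast h1
        exact this.trans k
      · have : |((g.2 - f.2 : ℤ) : ℝ)| ≤ ((2 * l + 1 + M : ℕ) : ℝ) := by
          rw [abs_sub_comm] at h2
          exact_mod_cast h2
        exact this.trans k
    have key := osc_bound (S0 := dr t) (Y := 1) one_pos hv hL hω0.le hE hMpos hnear S
    have hto := tent_osc hK hc hr hT e3 S
    have hP := tent_charge hK hc hr hT hR
    have e0 : (fun e => dr t e - dr v e / 1) = dr (fun f => t f - v f) := by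
      funext e
      rw [dr_sub, div_one]
    rw [e0] at key
    refine key.trans ?_
    have q1 : (2 * (l : ℝ) + 1) ^ 2 * (64 * (l : ℝ) ^ 2 / (1 ^ 2 * (M : ℝ) ^ 2) *
        ∑ e ∈ bd R, (dr v e) ^ 2) ≤ ε / 2 * (Real.log r + 2) := by
      have k1 : (2 * (l : ℝ) + 1) ^ 2 * (64 * (l : ℝ) ^ 2 / (1 ^ 2 * (M : ℝ) ^ 2) *
          ∑ e ∈ bd R, (dr v e) ^ 2) ≤ (2 * (l : ℝ) + 1) ^ 2 *
          (64 * (l : ℝ) ^ 2 / (1 ^ 2 * (M : ℝ) ^ 2) * (32 * K ^ 2 * (Real.log r + 2))) := by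
        refine mul_le_mul_of_nonneg_left ?_ (by positivity)
        exact mul_le_mul_of_nonneg_left hD (by positivity)
      have k2 : (2 * (l : ℝ) + 1) ^ 2 * (64 * (l : ℝ) ^ 2 / (1 ^ 2 * (M : ℝ) ^ 2) *
          (32 * K ^ 2 * (Real.log r + 2))) = (2 * l + 1) ^ 2 * (64 * (l : ℝ) ^ 2 * (32 * K ^ 2)) /
          (M : ℝ) ^ 2 * (Real.log r + 2) := by
        ring
      rw [k2] at k1
      refine k1.trans (mul_le_mul_of_nonneg_right hMle (by linarith))
    have q2 : (2 * (l : ℝ) + 1) ^ 2 * (16 * (0 + ω * (∑ f ∈ R, |dv (dr t) f|) / 1)) ≤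
        ε / 2 * (Real.log r + 2) := by
      have k1 : ω * (∑ f ∈ R, |dv (dr t) f|) ≤ ω * (16 * K * (Real.log r + 2)) :=
        mul_le_mul_of_nonneg_left hP hω0.le
      have k2 : (2 * (l : ℝ) + 1) ^ 2 * (16 * (0 + ω * (∑ f ∈ R, |dv (dr t) f|) / 1)) ≤
          (2 * (l : ℝ) + 1) ^ 2 * (16 * (ω * (16 * K * (Real.log r + 2)))) := by
        refine mul_le_mul_of_nonneg_left ?_ (by positivity)
        rw [zero_add, div_one]
        linarith
      have k3 : (2 * (l : ℝ) + 1) ^ 2 * (16 * (ω * (16 * K * (Real.log r + 2)))) =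
          ε / 2 * (Real.log r + 2) := by
        rw [hω]
        field_simp
        ring
      rw [k3] at k2
      exact k2
    nlinarith
  · have k1 : ∑ e ∈ S, (dr (fun f => t f - v f) e) ^ 2 ≤
        ∑ e ∈ bd R, (dr t e - dr v e) ^ 2 := by
      classical
      rw [← Finset.sum_filter_add_sum_filter_not S (fun e => e ∈ bd R)]
      have k2 : ∑ e ∈ S with ¬e ∈ bd R, (dr (fun f => t f - v f) e) ^ 2 = 0 := by
        refine Finset.sum_eq_zero fun e he => ?_
        rw [dr_sub, hbd e (Finset.mem_filter.1 he).2, sub_self]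
        ring
      rw [k2, add_zero, Finset.sum_congr rfl fun e _ => by rw [dr_sub]]
      refine Finset.sum_le_sum_of_subset_of_nonneg ?_ fun _ _ _ => sq_nonneg _
      intro e he
      exact (Finset.mem_filter.1 he).2
    have k2 : 0 ≤ (2 * CO K l + 2 * ε) * Real.log r := by positivity
    nlinarith [sq_nonneg K]
  · classical
    rw [← Finset.sum_filter_add_sum_filter_not S (fun e => e ∈ bd R)]
    have k1 : ∑ e ∈ S with e ∈ bd R, (dr v e) ^ 2 ≤ 32 * K ^ 2 * (Real.log r + 2) := by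
      refine le_trans ?_ hD
      refine Finset.sum_le_sum_of_subset_of_nonneg ?_ fun _ _ _ => sq_nonneg _
      intro e he
      exact (Finset.mem_filter.1 he).2
    have k2 : ∑ e ∈ S with ¬e ∈ bd R, (dr v e) ^ 2 ≤ 32 * K ^ 2 * (Real.log r + 2) := by
      rw [Finset.sum_congr rfl (g := fun e => (dr t e) ^ 2) fun e he => by
        rw [hbd e (Finset.mem_filter.1 he).2]]
      exact tent_energy hK hc hr hT _
    have k3 : 0 ≤ (2 * CO K l + 2 * ε) * Real.log r := by positivity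
    nlinarith [sq_nonneg K]

end Vale.Agent.P159.T1.S.H126
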